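import Mathlib

/-! # P235: definitions (tree decompositions, shortest-path metrics, embeddings into `L₁`) -/

namespace Vale.Agent.P235

open MeasureTheory

/-- `G` has treewidth at most `w`: there is a tree decomposition (a finite tree `T` with bags `bag t`)
such that every edge lies in a bag, the bags containing any vertex form a nonempty subtree, and all
bags have at most `w + 1` elements. -/
def TreewidthLE {V : Type} (G : SimpleGraph V) (w : ℕ) : Prop :=
  ∃ (τ : Type) (_ : Finite τ) (T : SimpleGraph τ) (bag : τ → Finset V), T.IsTree ∧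
    (∀ u v, G.Adj u v → ∃ t, u ∈ bag t ∧ v ∈ bag t) ∧
    (∀ v, (T.induce {t | v ∈ bag t}).Connected) ∧
    ∀ t, (bag t).card ≤ w + 1

/-- the length of a walk for the edge lengths `ℓ` -/
def walkLen {V : Type} {G : SimpleGraph V} (ℓ : Sym2 V → ℝ) {x y : V} (p : G.Walk x y) : ℝ :=
  (p.edges.map ℓ).sum

/-- the shortest-path metric of `(G, ℓ)` -/
noncomputable def pathDist {V : Type} (G : SimpleGraph V) (ℓ : Sym2 V → ℝ) (x y : V) : ℝ :=
  ⨅ p : G.Walk x y, walkLen ℓ p

/-- `d` embeds into some `L₁(Ω, μ)` with distortion at most `C` -/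
def EmbedsL1 {V : Type} (d : V → V → ℝ) (C : ℝ) : Prop :=
  ∃ (Ω : Type) (_ : MeasurableSpace Ω) (μ : Measure Ω) (f : V → Ω → ℝ),
    (∀ x, Integrable (f x) μ) ∧
    ∀ x y, d x y ≤ ∫ ω, |f x ω - f y ω| ∂μ ∧ ∫ ω, |f x ω - f y ω| ∂μ ≤ C * d x y

end Vale.Agent.P235
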