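import Vale.Agent.P235.Defs

/-! Row ELIM: an elimination order gives a tree decomposition. -/

namespace Vale.Agent.P235

theorem elim {V : Type} [Finite V] (G : SimpleGraph V) (R : V → V → Prop) (rk : V → ℕ) (w : ℕ)
    (hs : ∀ u v, R u v → R v u) (hne : ∀ u v, R u v → rk u ≠ rk v)
    (hG : ∀ u v, G.Adj u v → R u v)
    (hcl : ∀ v a b, R v a → R v b → rk a < rk v → rk b < rk v → a ≠ b → R a b)
    (hw : ∀ v, {u | R v u ∧ rk u < rk v}.ncard ≤ w)
    (r : V) (hr : ∀ v, v ≠ r → ∃ u, R v u ∧ rk u < rk v) : TreewidthLE G w := by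
  classical
  have := Fintype.ofFinite V
  -- parents
  have hpar : ∀ v, ∃ u, v ≠ r → R v u ∧ rk u < rk v ∧ ∀ x, R v x → rk x < rk v → rk x ≤ rk u := by
    intro v
    by_cases hv : v = r
    · exact ⟨v, fun h => absurd hv h⟩
    · obtain ⟨u0, hu0⟩ := hr v hv
      obtain ⟨u, hu, hmax⟩ := Finset.exists_max_image
        (Finset.univ.filter fun u => R v u ∧ rk u < rk v) rk
        ⟨u0, Finset.mem_filter.2 ⟨Finset.mem_univ _, hu0⟩⟩
      have hu' := (Finset.mem_filter.1 hu).2
      exact ⟨u, fun _ => ⟨hu'.1, hu'.2, fun x hx1 hx2 =>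
        hmax x (Finset.mem_filter.2 ⟨Finset.mem_univ _, hx1, hx2⟩)⟩⟩
  choose par hpar using hpar
  have hmin : ∀ n v, rk v = n → v ≠ r → rk r < rk v := by
    intro n
    induction n using Nat.strong_induction_on with
    | _ n ih =>
      intro v hv hvr
      obtain ⟨-, h2, -⟩ := hpar v hvr
      by_cases hu : par v = r
      · rw [hu] at h2
        exact h2
      · exact (ih (rk (par v)) (hv ▸ h2) (par v) rfl hu).trans h2
  let T : SimpleGraph V :=
    { Adj := fun u v => u ≠ v ∧ ((u ≠ r ∧ par u = v) ∨ (v ≠ r ∧ par v = u))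
      symm := ⟨fun u v h => ⟨h.1.symm, h.2.symm⟩⟩
      loopless := ⟨fun u h => h.1 rfl⟩ }
  have hadj : ∀ v, v ≠ r → T.Adj v (par v) := by
    intro v hv
    have h2 := (hpar v hv).2.1
    exact ⟨fun h => by rw [← h] at h2; exact lt_irrefl _ h2, Or.inl ⟨hv, rfl⟩⟩
  have hreach : ∀ n v, rk v = n → T.Reachable r v := by
    intro n
    induction n using Nat.strong_induction_on with
    | _ n ih =>
      intro v hv
      by_cases hvr : v = r
      · rw [hvr]
      · have h2 := (hpar v hvr).2.1
        exact (ih _ (hv ▸ h2) (par v) rfl).trans (hadj v hvr).symm.reachable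
  have hconn : T.Connected := by
    rw [SimpleGraph.connected_iff_exists_forall_reachable]
    exact ⟨r, fun v => hreach _ v rfl⟩
  have htree : T.IsTree := by
    rw [SimpleGraph.isTree_iff_connected_and_card]
    refine ⟨hconn, le_antisymm ?_ ?_⟩
    · have h1 : T.edgeSet ⊆ (fun v => s(v, par v)) '' {v | v ≠ r} := by
        intro e he
        induction e using Sym2.ind with
        | _ u v =>
          rcases he.2 with h | h
          · have h' : par u = v := h.2
            exact ⟨u, h.1, by show s(u, par u) = s(u, v); rw [h']⟩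
          · have h' : par v = u := h.2
            exact ⟨v, h.1, by show s(v, par v) = s(u, v); rw [h', Sym2.eq_swap]⟩
      have h2 : T.edgeSet.ncard ≤ {v : V | v ≠ r}.ncard :=
        (Set.ncard_le_ncard h1 (Set.toFinite _)).trans (Set.ncard_image_le (Set.toFinite _))
      have h3 : {v : V | v ≠ r}.ncard + 1 = Nat.card V := by
        have h4 : {v : V | v ≠ r} = ({r} : Set V)ᶜ := rfl
        rw [h4]
        have h5 := Set.ncard_add_ncard_compl ({r} : Set V)
        rw [Set.ncard_singleton] at h5
        omega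
      have h6 : Nat.card T.edgeSet = T.edgeSet.ncard := rfl
      omega
    · exact hconn.card_vert_le_card_edgeSet_add_one
  let bag : V → Finset V := fun v => insert v (Finset.univ.filter fun u => R v u ∧ rk u < rk v)
  have hbag : ∀ x v, x ∈ bag v ↔ x = v ∨ (R v x ∧ rk x < rk v) := by
    intro x v
    simp [bag]
  refine ⟨V, inferInstance, T, bag, htree, ?_, ?_, ?_⟩
  · intro u v huv
    have h1 := hG u v huv
    rcases lt_or_gt_of_ne (hne u v h1) with h | h
    · exact ⟨v, (hbag u v).2 (Or.inr ⟨hs _ _ h1, h⟩), (hbag v v).2 (Or.inl rfl)⟩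
    · exact ⟨u, (hbag u u).2 (Or.inl rfl), (hbag v u).2 (Or.inr ⟨h1, h⟩)⟩
  · intro x
    rw [SimpleGraph.connected_iff_exists_forall_reachable]
    have hx : x ∈ bag x := (hbag x x).2 (Or.inl rfl)
    refine ⟨⟨x, hx⟩, ?_⟩
    have key : ∀ n v (hv : x ∈ bag v), rk v = n →
        (T.induce {t | x ∈ bag t}).Reachable ⟨x, hx⟩ ⟨v, hv⟩ := by
      intro n
      induction n using Nat.strong_induction_on with
      | _ n ih =>
        intro v hv hvn
        rcases (hbag x v).1 hv with h | ⟨h1, h2⟩
        · subst h
          exact SimpleGraph.Reachable.refl _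
        · have hvr : v ≠ r := by
            rintro rfl
            by_cases hxv : x = v
            · rw [hxv] at h2
              exact lt_irrefl _ h2
            · exact lt_asymm h2 (hmin _ x rfl hxv)
          obtain ⟨hp1, hp2, hp3⟩ := hpar v hvr
          have hpx : x ∈ bag (par v) := by
            rw [hbag]
            by_cases hxp : x = par v
            · exact Or.inl hxp
            · have h3 : R x (par v) := hcl v x (par v) h1 hp1 h2 hp2 hxp
              exact Or.inr ⟨hs _ _ h3, lt_of_le_of_ne (hp3 x h1 h2) (hne _ _ h3)⟩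
          refine (ih _ (hvn ▸ hp2) (par v) hpx rfl).trans ?_
          have h4 : (T.induce {t | x ∈ bag t}).Adj ⟨par v, hpx⟩ ⟨v, hv⟩ := (hadj v hvr).symm
          exact h4.reachable
    exact fun v => key _ v.1 v.2 rfl
  · intro v
    refine (Finset.card_insert_le _ _).trans ?_
    have h1 : (Finset.univ.filter fun u => R v u ∧ rk u < rk v).card =
        {u | R v u ∧ rk u < rk v}.ncard := by
      rw [← Set.ncard_coe_finset]
      congr 1
      ext u
      simp
    rw [h1]
    exact Nat.add_le_add_right (hw v) 1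

end Vale.Agent.P235
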