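import Vale.Agent.P235.Tri

/-! The integrated inequality for the treewidth three gadget. -/

namespace Vale.Agent.P235

open MeasureTheory

namespace Tri

theorem real_tri (n : ℕ) (s t r : ℝ) (z : Fin n → ℝ) (y : Fin n → Fin n → ℝ) :
    n * (∑ i, ∑ j, |z i - z j|) + (9/4) * ∑ i, ∑ a, ∑ b, |y i a - y i b| ≤
      (n:ℝ)^3 / 8 * |s - t| + n * ∑ i, ∑ a, ((|r - y i a| + |y i a - t|) +
        (|z i - y i a| + |y i a - t|) + (3/2) * (|s - r| + |r - y i a| - |s - t|)) +
        8 * (n:ℝ)^3 * ∑ i, ∑ a, ex s t r (z i) (y i a) := by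
  rcases le_total s t with h | h
  · exact real_le n h r z y
  · have h1 := real_le n (neg_le_neg h) (-r) (fun i => -(z i)) (fun i a => -(y i a))
    have h2 : ∀ u v : ℝ, |-u - -v| = |u - v| := fun u v => by
      rw [← abs_neg (u - v)]; congr 1; ring
    have h3 : ∀ i a, ex (-s) (-t) (-r) (-(z i)) (-(y i a)) = ex s t r (z i) (y i a) := by
      intro i a; simp only [ex, h2]
    simp only [h2, h3] at h1
    exact h1

theorem tri_integral {V Ω : Type} [MeasurableSpace Ω] (μ : Measure Ω) (f : V → Ω → ℝ)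
    (hf : ∀ x, Integrable (f x) μ) : TriIneq (fun x y => ∫ ω, |f x ω - f y ω| ∂μ) := by
  intro n s t r z y
  have hi : ∀ x y, Integrable (fun ω => |f x ω - f y ω|) μ := fun x y => ((hf x).sub (hf y)).abs
  set I : V → V → ℝ := fun x y => ∫ ω, |f x ω - f y ω| ∂μ with hI
  have ad : ∀ {g h : Ω → ℝ}, Integrable g μ → Integrable h μ → Integrable (fun ω => g ω + h ω) μ :=
    fun hg hh => hg.add hh
  have sb : ∀ {g h : Ω → ℝ}, Integrable g μ → Integrable h μ → Integrable (fun ω => g ω - h ω) μ :=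
    fun hg hh => hg.sub hh
  have cm : ∀ {g : Ω → ℝ} (c : ℝ), Integrable g μ → Integrable (fun ω => c * g ω) μ :=
    fun c hg => hg.const_mul c
  have fs : ∀ {g : Fin n → Ω → ℝ}, (∀ i, Integrable (g i) μ) →
      Integrable (fun ω => ∑ i, g i ω) μ := fun hg => integrable_finsetSum _ fun i _ => hg i
  have fsi : ∀ {g : Fin n → Ω → ℝ}, (∀ i, Integrable (g i) μ) →
      ∫ ω, ∑ i, g i ω ∂μ = ∑ i, ∫ ω, g i ω ∂μ := fun hg => integral_finsetSum _ fun i _ => hg i
  -- integrability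
  have a1 : Integrable (fun ω => ∑ i, ∑ j, |f (z i) ω - f (z j) ω|) μ :=
    fs fun i => fs fun j => hi _ _
  have a2 : Integrable (fun ω => ∑ i, ∑ a, ∑ b, |f (y i a) ω - f (y i b) ω|) μ :=
    fs fun i => fs fun a => fs fun b => hi _ _
  have t1 : ∀ i a, Integrable (fun ω => |f r ω - f (y i a) ω| + |f (y i a) ω - f t ω|) μ :=
    fun i a => ad (hi _ _) (hi _ _)
  have t2 : ∀ i a, Integrable (fun ω => |f (z i) ω - f (y i a) ω| + |f (y i a) ω - f t ω|) μ :=
    fun i a => ad (hi _ _) (hi _ _)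
  have t3 : ∀ i a, Integrable (fun ω => |f s ω - f r ω| + |f r ω - f (y i a) ω|) μ :=
    fun i a => ad (hi _ _) (hi _ _)
  have t4 : ∀ i a, Integrable (fun ω => |f s ω - f r ω| + |f r ω - f (y i a) ω| - |f s ω - f t ω|) μ :=
    fun i a => sb (t3 i a) (hi _ _)
  have t5 : ∀ i a, Integrable (fun ω => (|f r ω - f (y i a) ω| + |f (y i a) ω - f t ω|) +
      (|f (z i) ω - f (y i a) ω| + |f (y i a) ω - f t ω|)) μ := fun i a => ad (t1 i a) (t2 i a)
  have t6 : ∀ i a, Integrable (fun ω => (|f r ω - f (y i a) ω| + |f (y i a) ω - f t ω|) +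
      (|f (z i) ω - f (y i a) ω| + |f (y i a) ω - f t ω|) +
      (3/2) * (|f s ω - f r ω| + |f r ω - f (y i a) ω| - |f s ω - f t ω|)) μ :=
    fun i a => ad (t5 i a) (cm _ (t4 i a))
  have e1 : ∀ i a, ∫ ω, ((|f r ω - f (y i a) ω| + |f (y i a) ω - f t ω|) +
      (|f (z i) ω - f (y i a) ω| + |f (y i a) ω - f t ω|) +
      (3/2) * (|f s ω - f r ω| + |f r ω - f (y i a) ω| - |f s ω - f t ω|)) ∂μ =
      (I r (y i a) + I (y i a) t) + (I (z i) (y i a) + I (y i a) t) +
        (3/2) * (I s r + I r (y i a) - I s t) := fun i a => by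
    rw [integral_add (t5 i a) (cm _ (t4 i a)), integral_add (t1 i a) (t2 i a),
      integral_add (hi _ _) (hi _ _), integral_add (hi _ _) (hi _ _), integral_const_mul,
      integral_sub (t3 i a) (hi _ _), integral_add (hi _ _) (hi _ _)]
  have u0 : ∀ i a, Integrable (fun ω => |f s ω - f r ω| + |f r ω - f (y i a) ω| +
      |f s ω - f (z i) ω|) μ := fun i a => ad (t3 i a) (hi _ _)
  have u1 : ∀ i a, Integrable (fun ω => |f s ω - f r ω| + |f r ω - f (y i a) ω| +
      |f s ω - f (z i) ω| + |f (z i) ω - f (y i a) ω|) μ := fun i a => ad (u0 i a) (hi _ _)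
  have u2 : ∀ i a, Integrable (fun ω => |f s ω - f r ω| + |f r ω - f (y i a) ω| +
      |f s ω - f (z i) ω| + |f (z i) ω - f (y i a) ω| + 2 * |f (y i a) ω - f t ω|) μ :=
    fun i a => ad (u1 i a) (cm _ (hi _ _))
  have u3 : ∀ i a, Integrable (fun ω => ex (f s ω) (f t ω) (f r ω) (f (z i) ω) (f (y i a) ω)) μ :=
    fun i a => sb (u2 i a) (cm _ (hi _ _))
  have e2 : ∀ i a, ∫ ω, ex (f s ω) (f t ω) (f r ω) (f (z i) ω) (f (y i a) ω) ∂μ =
      exd I s t r (z i) (y i a) := fun i a => by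
    unfold ex exd
    rw [integral_sub (u2 i a) (cm _ (hi _ _)), integral_add (u1 i a) (cm _ (hi _ _)),
      integral_add (u0 i a) (hi _ _), integral_add (t3 i a) (hi _ _),
      integral_add (hi _ _) (hi _ _), integral_const_mul, integral_const_mul]
  have b1 : Integrable (fun ω => ∑ i, ∑ a, ((|f r ω - f (y i a) ω| + |f (y i a) ω - f t ω|) +
      (|f (z i) ω - f (y i a) ω| + |f (y i a) ω - f t ω|) +
      (3/2) * (|f s ω - f r ω| + |f r ω - f (y i a) ω| - |f s ω - f t ω|))) μ :=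
    fs fun i => fs fun a => t6 i a
  have b2 : Integrable (fun ω => ∑ i, ∑ a, ex (f s ω) (f t ω) (f r ω) (f (z i) ω)
      (f (y i a) ω)) μ := fs fun i => fs fun a => u3 i a
  have L : ∫ ω, (n * (∑ i, ∑ j, |f (z i) ω - f (z j) ω|) +
      (9/4) * ∑ i, ∑ a, ∑ b, |f (y i a) ω - f (y i b) ω|) ∂μ =
      n * (∑ i, ∑ j, I (z i) (z j)) + (9/4) * ∑ i, ∑ a, ∑ b, I (y i a) (y i b) := by
    rw [integral_add (cm _ a1) (cm _ a2), integral_const_mul, integral_const_mul,
      fsi fun i => fs fun j => hi _ _, fsi fun i => fs fun a => fs fun b => hi _ _]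
    congr 2
    · exact Finset.sum_congr rfl fun i _ => fsi fun j => hi _ _
    · refine Finset.sum_congr rfl fun i _ => ?_
      rw [fsi fun a => fs fun b => hi _ _]
      exact Finset.sum_congr rfl fun a _ => fsi fun b => hi _ _
  have Rr : ∫ ω, ((n:ℝ)^3 / 8 * |f s ω - f t ω| +
      n * (∑ i, ∑ a, ((|f r ω - f (y i a) ω| + |f (y i a) ω - f t ω|) +
      (|f (z i) ω - f (y i a) ω| + |f (y i a) ω - f t ω|) +
      (3/2) * (|f s ω - f r ω| + |f r ω - f (y i a) ω| - |f s ω - f t ω|))) +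
      8 * (n:ℝ)^3 * ∑ i, ∑ a, ex (f s ω) (f t ω) (f r ω) (f (z i) ω) (f (y i a) ω)) ∂μ =
      (n:ℝ)^3 / 8 * I s t + n * ∑ i, ∑ a, ((I r (y i a) + I (y i a) t) +
        (I (z i) (y i a) + I (y i a) t) + (3/2) * (I s r + I r (y i a) - I s t)) +
        8 * (n:ℝ)^3 * ∑ i, ∑ a, exd I s t r (z i) (y i a) := by
    rw [integral_add (ad (cm _ (hi _ _)) (cm _ b1)) (cm _ b2),
      integral_add (cm _ (hi _ _)) (cm _ b1), integral_const_mul, integral_const_mul,
      integral_const_mul, fsi fun i => fs fun a => t6 i a, fsi fun i => fs fun a => u3 i a]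
    congr 2
    · congr 1
      refine Finset.sum_congr rfl fun i _ => ?_
      rw [fsi fun a => t6 i a]
      exact Finset.sum_congr rfl fun a _ => e1 i a
    · refine Finset.sum_congr rfl fun i _ => ?_
      rw [fsi fun a => u3 i a]
      exact Finset.sum_congr rfl fun a _ => e2 i a
  show n * (∑ i, ∑ j, I (z i) (z j)) + (9/4) * ∑ i, ∑ a, ∑ b, I (y i a) (y i b) ≤ _
  rw [← L, ← Rr]
  refine integral_mono (ad (cm _ a1) (cm _ a2))
    (ad (ad (cm _ (hi _ _)) (cm _ b1)) (cm _ b2)) ?_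
  intro ω
  exact real_tri n (f s ω) (f t ω) (f r ω) (fun i => f (z i) ω) (fun i a => f (y i a) ω)

end Tri

theorem sp_integral {V Ω : Type} [MeasurableSpace Ω] (μ : Measure Ω) (f : V → Ω → ℝ)
    (hf : ∀ x, Integrable (f x) μ) : SP (fun x y => ∫ ω, |f x ω - f y ω| ∂μ) :=
  ⟨six_integral μ f hf, mid_integral μ f hf, Tri.tri_integral μ f hf⟩

end Vale.Agent.P235
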