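import Vale.Agent.P235.Step
import Vale.Agent.P235.TriInt
import Vale.Agent.P235.Elim

/-! From the weighted multigraph to a simple graph with edge lengths. -/

namespace Vale.Agent.P235

open MeasureTheory

/-- the underlying simple graph -/
def toG (K : WG) : SimpleGraph K.V where
  Adj x y := x ≠ y ∧ ∃ e, s(K.src e, K.tgt e) = s(x, y)
  symm := ⟨fun x y h => ⟨h.1.symm, h.2.imp fun e he => he.trans Sym2.eq_swap⟩⟩
  loopless := ⟨fun x h => h.1 rfl⟩

open Classical in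
/-- the shortest length of a parallel class of edges -/
noncomputable def toLen (K : WG) (z : Sym2 K.V) : ℝ :=
  if h : ∃ e, s(K.src e, K.tgt e) = z ∧ ∀ e', s(K.src e', K.tgt e') = z → K.len e ≤ K.len e' then
    K.len h.choose else 1

theorem toLen_pos {K : WG} (h : ∀ e, 0 < K.len e) (z : Sym2 K.V) : 0 < toLen K z := by
  unfold toLen
  split_ifs with h1
  · exact h _
  · exact one_pos

theorem toLen_spec {K : WG} (hf : Finite K.E) (e : K.E) : ∃ e', s(K.src e', K.tgt e') =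
    s(K.src e, K.tgt e) ∧ toLen K s(K.src e, K.tgt e) = K.len e' ∧
    toLen K s(K.src e, K.tgt e) ≤ K.len e := by
  have h1 : ∃ e1, s(K.src e1, K.tgt e1) = s(K.src e, K.tgt e) ∧
      ∀ e', s(K.src e', K.tgt e') = s(K.src e, K.tgt e) → K.len e1 ≤ K.len e' := by
    have : Nonempty {e' : K.E // s(K.src e', K.tgt e') = s(K.src e, K.tgt e)} := ⟨⟨e, rfl⟩⟩
    obtain ⟨e1, he1⟩ := Finite.exists_min
      (fun x : {e' : K.E // s(K.src e', K.tgt e') = s(K.src e, K.tgt e)} => K.len x.1)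
    exact ⟨e1.1, e1.2, fun e' he' => he1 ⟨e', he'⟩⟩
  refine ⟨h1.choose, h1.choose_spec.1, ?_, ?_⟩
  · unfold toLen; rw [dif_pos h1]
  · unfold toLen; rw [dif_pos h1]; exact h1.choose_spec.2 e rfl

theorem walkLen_nonneg {V : Type} {G : SimpleGraph V} {ℓ : Sym2 V → ℝ} (h : ∀ z, 0 < ℓ z) {x y : V}
    (p : G.Walk x y) : 0 ≤ walkLen ℓ p := by
  unfold walkLen
  refine List.sum_nonneg ?_
  intro a ha
  obtain ⟨z, _, rfl⟩ := List.mem_map.mp ha
  exact (h z).le

theorem pathDist_nonneg {V : Type} {G : SimpleGraph V} {ℓ : Sym2 V → ℝ} (h : ∀ z, 0 < ℓ z) (x y : V) :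
    0 ≤ pathDist G ℓ x y := Real.iInf_nonneg fun p => walkLen_nonneg h p

theorem pathDist_adj {V : Type} {G : SimpleGraph V} {ℓ : Sym2 V → ℝ} (h : ∀ z, 0 < ℓ z) {x y : V}
    (hxy : G.Adj x y) : pathDist G ℓ x y ≤ ℓ s(x, y) := by
  refine (ciInf_le ⟨0, ?_⟩ hxy.toWalk).trans (le_of_eq (by simp [walkLen]))
  rintro _ ⟨p, rfl⟩
  exact walkLen_nonneg h p

theorem le_walkLen {V : Type} {G : SimpleGraph V} {ℓ : Sym2 V → ℝ} {g : V → ℝ}
    (hg : ∀ x y, G.Adj x y → g x - g y ≤ ℓ s(x, y)) {x y : V} (p : G.Walk x y) :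
    g x - g y ≤ walkLen ℓ p := by
  induction p with
  | nil => simp [walkLen]
  | cons h p ih =>
    have := hg _ _ h
    simp only [walkLen, SimpleGraph.Walk.edges_cons, List.map_cons, List.sum_cons] at ih ⊢
    linarith

theorem le_pathDist {V : Type} {G : SimpleGraph V} {ℓ : Sym2 V → ℝ} {g : V → ℝ}
    (hg : ∀ x y, G.Adj x y → g x - g y ≤ ℓ s(x, y)) {x y : V} (h : G.Reachable x y) :
    g x - g y ≤ pathDist G ℓ x y := by
  have : Nonempty (G.Walk x y) := h
  exact le_ciInf fun p => le_walkLen hg p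

theorem toG_conn {K : WG} {w : ℕ} (hK : Ok K w) (hne : ∀ e, K.src e ≠ K.tgt e) :
    (toG K).Connected := by
  have : Nonempty K.V := hK.neE.map K.src
  refine ⟨fun a b => ?_⟩
  induction hK.conn a b with
  | rel x y hxy =>
    obtain ⟨e, rfl, rfl⟩ := hxy
    exact SimpleGraph.Adj.reachable (show (toG K).Adj _ _ from ⟨hne e, e, rfl⟩)
  | refl x => exact .refl _
  | symm x y _ ih => exact ih.symm
  | trans x y z _ _ ih1 ih2 => exact ih1.trans ih2

theorem final_of {w : ℕ} {C : ℝ} {K : WG} (hK : Ok K w) (hF : Fail K (max C 0)) :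
    ∃ (V : Type) (_ : Finite V) (G : SimpleGraph V), G.Connected ∧ TreewidthLE G w ∧
      ∃ ℓ : Sym2 V → ℝ, (∀ z, 0 < ℓ z) ∧ ¬ EmbedsL1 (pathDist G ℓ) C := by
  obtain ⟨R, rk, r, hel⟩ := hK.elim
  have hne : ∀ e, K.src e ≠ K.tgt e := fun e h => hel.ne _ _ (hel.edge e) (by rw [h])
  have hfin := hK.finV
  have hconn := toG_conn hK hne
  refine ⟨K.V, hK.finV, toG K, hconn, ?_, toLen K, toLen_pos hK.pos, ?_⟩
  · refine elim (toG K) R rk w hel.symm hel.ne ?_ hel.cl hel.card r hel.root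
    rintro u v ⟨_, e, he⟩
    rcases Sym2.eq_iff.mp he with ⟨h1, h2⟩ | ⟨h1, h2⟩
    · rw [← h1, ← h2]; exact hel.edge e
    · rw [← h1, ← h2]; exact hel.symm _ _ (hel.edge e)
  · rintro ⟨Ω, mΩ, μ, f, hf, hd⟩
    obtain ⟨i, hi⟩ := hF _ (sp_integral μ f hf) (by
      intro e
      have h1 := (hd (K.src e) (K.tgt e)).2
      have h2 : pathDist (toG K) (toLen K) (K.src e) (K.tgt e) ≤ K.len e := by
        have h3 : (toG K).Adj (K.src e) (K.tgt e) := ⟨hne e, e, rfl⟩
        obtain ⟨_, _, _, h4⟩ := toLen_spec hK.finE e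
        exact (pathDist_adj (toLen_pos hK.pos) h3).trans h4
      have h0 := pathDist_nonneg (G := toG K) (toLen_pos hK.pos) (K.src e) (K.tgt e)
      calc _ ≤ C * pathDist (toG K) (toLen K) (K.src e) (K.tgt e) := h1
        _ ≤ max C 0 * pathDist (toG K) (toLen K) (K.src e) (K.tgt e) :=
            mul_le_mul_of_nonneg_right (le_max_left _ _) h0
        _ ≤ max C 0 * K.len e := mul_le_mul_of_nonneg_left h2 (le_max_right _ _))
    obtain ⟨g, hg1, hg2⟩ := hK.wit i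
    have h5 : g (K.p i) - g (K.q i) ≤ pathDist (toG K) (toLen K) (K.p i) (K.q i) := by
      refine le_pathDist ?_ (hconn.preconnected _ _)
      rintro x y ⟨_, e, he⟩
      obtain ⟨e', h6, h7, _⟩ := toLen_spec hK.finE e
      rw [← he, h7]
      have h8 := abs_le.mp (hg1 e')
      rcases Sym2.eq_iff.mp (h6.trans he) with ⟨h9, h10⟩ | ⟨h9, h10⟩
      · rw [← h9, ← h10]; linarith [h8.1, h8.2]
      · rw [← h9, ← h10]; linarith [h8.1, h8.2]
    have h6 := (hd (K.p i) (K.q i)).1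
    exact absurd hi (not_lt.mpr (hg2.trans (h5.trans h6)))

theorem final (k : ℕ) (C : ℝ) (hC : C < k + 1) :
    ∃ (V : Type) (_ : Finite V) (G : SimpleGraph V), G.Connected ∧ TreewidthLE G (2 * k + 1) ∧
      ∃ ℓ : Sym2 V → ℝ, (∀ z, 0 < ℓ z) ∧ ¬ EmbedsL1 (pathDist G ℓ) C := by
  obtain ⟨K, hK, hF⟩ := main k (max C 0)
    (max_lt hC (by have : (0:ℝ) ≤ k := Nat.cast_nonneg k; linarith))
  exact final_of hK hF

end Vale.Agent.P235
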