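import Vale.Agent.P235.Step

/-! The base of the induction with constant `2` at treewidth `2`: iterated `K_{2,n}`. -/

namespace Vale.Agent.P235

/-- replace every edge of `H` by a copy of `K_{2,n}` -/
noncomputable def glue2 (H : WG) (n : ℕ) : WG where
  V := H.V ⊕ (H.E × Fin n)
  E := H.E × (Fin n × Bool)
  P := H.P ⊕ (H.E × {z : Fin n × Fin n // z.1 ≠ z.2})
  src
    | (h, (_, false)) => .inl (H.src h)
    | (h, (i, true)) => .inr (h, i)
  tgt
    | (h, (i, false)) => .inr (h, i)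
    | (h, (_, true)) => .inl (H.tgt h)
  len
    | (h, _) => H.len h / 2
  p
    | .inl i => .inl (H.p i)
    | .inr (h, z) => .inr (h, z.1.1)
  q
    | .inl i => .inl (H.q i)
    | .inr (h, z) => .inr (h, z.1.2)
  D
    | .inl i => H.D i
    | .inr (h, _) => H.len h

/-- the relation of the elimination order of `glue2` -/
def glue2R (H : WG) (n : ℕ) (RH : H.V → H.V → Prop) :
    (H.V ⊕ (H.E × Fin n)) → (H.V ⊕ (H.E × Fin n)) → Prop
  | .inl a, .inl b => RH a b
  | .inl a, .inr (h, _) => a = H.src h ∨ a = H.tgt h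
  | .inr (h, _), .inl a => a = H.src h ∨ a = H.tgt h
  | .inr _, .inr _ => False

/-- the ranks of the elimination order of `glue2` -/
def glue2Rk (H : WG) (n : ℕ) (rH : H.V → ℕ) (M : ℕ) : (H.V ⊕ (H.E × Fin n)) → ℕ
  | .inl a => rH a
  | .inr _ => M

theorem glue2_el {H : WG} {wH : ℕ} (n : ℕ) {RH : H.V → H.V → Prop} {rH : H.V → ℕ} {r : H.V}
    (hH : El H wH RH rH r) {M : ℕ} (hM : ∀ a, rH a < M) (hfH : Finite H.V) {w : ℕ} (h1 : wH ≤ w)
    (h2 : 2 ≤ w) :
    El (glue2 H n) w (glue2R H n RH) (glue2Rk H n rH M) (Sum.inl r) where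
  symm := by
    rintro (a | ⟨h, i⟩) (b | ⟨h', i'⟩) <;> simp only [glue2R]
    · exact hH.symm _ _
    · exact id
    · exact id
    · exact id
  ne := by
    rintro (a | ⟨h, i⟩) (b | ⟨h', i'⟩) <;> simp only [glue2R, glue2Rk]
    · exact hH.ne _ _
    · intro _; have := hM a; omega
    · intro _; have := hM b; omega
    · intro h; exact h.elim
  edge := by
    rintro ⟨h, i, _ | _⟩ <;> simp [glue2, glue2R]
  cl := by
    have hst : ∀ h : H.E, ∀ a b : H.V, (a = H.src h ∨ a = H.tgt h) → (b = H.src h ∨ b = H.tgt h) →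
        a ≠ b → RH a b := by
      rintro h a b (rfl | rfl) (rfl | rfl) hab
      · exact (hab rfl).elim
      · exact hH.edge h
      · exact hH.symm _ _ (hH.edge h)
      · exact (hab rfl).elim
    rintro (c | ⟨h, i⟩) (a | ⟨h', i'⟩) (b | ⟨h'', i''⟩) <;>
      simp only [glue2R, glue2Rk] <;> intro h1 h2 h3 h4 h5
    · exact hH.cl c a b h1 h2 h3 h4 (fun h => h5 (by rw [h]))
    · have := hM c; omega
    · have := hM c; omega
    · have := hM c; omega
    · exact hst h a b h1 h2 (fun h => h5 (by rw [h]))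
    · exact h2.elim
    · exact h1.elim
    · exact h1.elim
  card := by
    have : Finite H.V := hfH
    rintro (c | ⟨h, i⟩)
    · have hsub : {u | glue2R H n RH (Sum.inl c) u ∧ glue2Rk H n rH M u <
          glue2Rk H n rH M (Sum.inl c)} ⊆ Sum.inl '' {u | RH c u ∧ rH u < rH c} := by
        rintro (a | ⟨h', i'⟩) ⟨k1, k2⟩
        · exact ⟨a, ⟨k1, k2⟩, rfl⟩
        · simp only [glue2Rk] at k2; have := hM c; omega
      exact (Set.ncard_le_ncard hsub ((Set.toFinite _).image _)).trans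
        ((Set.ncard_image_le (Set.toFinite _)).trans ((hH.card c).trans h1))
    · have hsub : {u | glue2R H n RH (Sum.inr (h, i)) u ∧ glue2Rk H n rH M u <
          glue2Rk H n rH M (Sum.inr (h, i))} ⊆ {Sum.inl (H.src h), Sum.inl (H.tgt h)} := by
        rintro (a | ⟨h', i'⟩) ⟨k1, k2⟩
        · rcases k1 with k1 | k1
          · left; rw [k1]
          · right; rw [k1]; rfl
        · exact k1.elim
      refine (Set.ncard_le_ncard hsub (Set.toFinite _)).trans ?_
      exact (Set.ncard_insert_le _ _).trans (by rw [Set.ncard_singleton]; omega)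
  root := by
    rintro (c | ⟨h, i⟩) hc
    · obtain ⟨u, h1, h2⟩ := hH.root c (fun h => hc (by rw [h]))
      exact ⟨Sum.inl u, h1, h2⟩
    · refine ⟨Sum.inl (H.tgt h), ?_, ?_⟩
      · simp [glue2R]
      · simp only [glue2Rk]; have := hM (H.tgt h); omega

theorem glue2_conn {H : WG} {n : ℕ} (i0 : Fin n)
    (hH : ∀ a b, Relation.EqvGen (fun a b => ∃ e, H.src e = a ∧ H.tgt e = b) a b) :
    ∀ a b, Relation.EqvGen (fun a b => ∃ e, (glue2 H n).src e = a ∧ (glue2 H n).tgt e = b)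
      a b := by
  set S : (glue2 H n).V → (glue2 H n).V → Prop :=
    fun a b => ∃ e, (glue2 H n).src e = a ∧ (glue2 H n).tgt e = b with hS
  have h1 : ∀ a b : H.V, Relation.EqvGen S (Sum.inl a) (Sum.inl b) := by
    intro a b
    induction hH a b with
    | rel x y hxy =>
      obtain ⟨h, rfl, rfl⟩ := hxy
      refine .trans _ (Sum.inr (h, i0)) _ (.rel _ _ ⟨(h, (i0, false)), rfl, rfl⟩) ?_
      exact .rel _ _ ⟨(h, (i0, true)), rfl, rfl⟩
    | refl x => exact .refl _
    | symm x y _ ih => exact .symm _ _ ih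
    | trans x y z _ _ ih1 ih2 => exact .trans _ _ _ ih1 ih2
  have h2 : ∀ z : (glue2 H n).V, ∃ a : H.V, Relation.EqvGen S z (Sum.inl a) := by
    rintro (a | ⟨h, i⟩)
    · exact ⟨a, .refl _⟩
    · exact ⟨H.tgt h, .rel _ _ ⟨(h, (i, true)), rfl, rfl⟩⟩
  intro x y
  obtain ⟨a, ha⟩ := h2 x
  obtain ⟨b, hb⟩ := h2 y
  exact .trans _ _ _ ha (.trans _ _ _ (h1 a b) (.symm _ _ hb))

theorem glue2_wit {H : WG} {n : ℕ} (hlH : ∀ e, 0 < H.len e)
    (hwH : ∀ i, ∃ g : H.V → ℝ, (∀ e, |g (H.src e) - g (H.tgt e)| ≤ H.len e) ∧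
      H.D i ≤ g (H.p i) - g (H.q i)) :
    ∀ i, ∃ g : (glue2 H n).V → ℝ,
      (∀ e, |g ((glue2 H n).src e) - g ((glue2 H n).tgt e)| ≤ (glue2 H n).len e) ∧
      (glue2 H n).D i ≤ g ((glue2 H n).p i) - g ((glue2 H n).q i) := by
  classical
  rintro (i | ⟨h, ⟨⟨i, j⟩, hij⟩⟩)
  · obtain ⟨g, hg1, hg2⟩ := hwH i
    refine ⟨fun z => match z with
      | .inl a => g a
      | .inr (h, _) => (g (H.src h) + g (H.tgt h)) / 2, ?_, hg2⟩
    rintro ⟨h, i, _ | _⟩
    all_goals have h0 := abs_le.mp (hg1 h)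
    all_goals refine abs_le.mpr ?_
    all_goals simp only [glue2]
    · constructor <;> linarith [h0.1, h0.2]
    · constructor <;> linarith [h0.1, h0.2]
  · have hl := hlH h
    refine ⟨fun z => match z with
      | .inl _ => 0
      | .inr (h', i') => if h' = h then (if i' = i then H.len h / 2 else
          if i' = j then -(H.len h / 2) else 0) else 0, ?_, ?_⟩
    · have key : ∀ (h' : H.E) (i' : Fin n), |(if h' = h then (if i' = i then H.len h / 2 else
          if i' = j then -(H.len h / 2) else 0) else 0 : ℝ)| ≤ H.len h' / 2 := by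
        intro h' i'
        have hl' := hlH h'
        by_cases hh : h' = h
        · subst hh
          rw [if_pos rfl]
          by_cases h5 : i' = i
          · rw [if_pos h5, abs_of_pos (by linarith)]
          · rw [if_neg h5]
            by_cases h6 : i' = j
            · rw [if_pos h6, abs_neg, abs_of_pos (by linarith)]
            · rw [if_neg h6, abs_zero]; linarith
        · rw [if_neg hh, abs_zero]; linarith
      rintro ⟨h', i', _ | _⟩
      · simp only [glue2]
        rw [zero_sub, abs_neg]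
        exact key h' i'
      · simp only [glue2]
        rw [sub_zero]
        exact key h' i'
    · have hji : j ≠ i := fun h => hij h.symm
      simp only [glue2, if_true]
      rw [if_neg hji]
      linarith

theorem glue2_ok {H : WG} {w : ℕ} {n : ℕ} (i0 : Fin n) (hH : Ok H w) (h2 : 2 ≤ w) :
    Ok (glue2 H n) w := by
  have := hH.finV
  have := hH.finE
  have := hH.finP
  refine ⟨?_, ?_, ?_, ?_, ?_, glue2_wit hH.pos hH.wit, ?_, glue2_conn i0 hH.conn⟩
  · show Finite (H.V ⊕ (H.E × Fin n))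
    infer_instance
  · show Finite (H.E × (Fin n × Bool))
    infer_instance
  · show Finite (H.P ⊕ (H.E × {z : Fin n × Fin n // z.1 ≠ z.2}))
    infer_instance
  · obtain ⟨h⟩ := hH.neE
    exact ⟨(h, (i0, false))⟩
  · rintro ⟨h, i, b⟩
    have := hH.pos h
    simp only [glue2]
    linarith
  · obtain ⟨RH, rH, r, hH'⟩ := hH.elim
    obtain ⟨M, hM⟩ := (Set.finite_range rH).bddAbove
    exact ⟨_, _, _, glue2_el n hH' (M := M + 1) (fun a => Nat.lt_succ_of_le (hM ⟨a, rfl⟩))
      hH.finV le_rfl h2⟩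

theorem SP.self_nonneg {V : Type} {ρ : V → V → ℝ} (h : SP ρ) (x : V) : 0 ≤ ρ x x := by
  have := h.six x x x x x x
  linarith

theorem step2 {H : WG} {n : ℕ} (hn : 0 < n) {τ : ℝ}
    {ρ : (glue2 H n).V → (glue2 H n).V → ℝ} (hρ : SP ρ)
    (he : ∀ e, ρ ((glue2 H n).src e) ((glue2 H n).tgt e) ≤ τ * (glue2 H n).len e)
    (hw : ∀ i, (glue2 H n).D i ≤ ρ ((glue2 H n).p i) ((glue2 H n).q i)) (h : H.E) :
    ρ (Sum.inl (H.src h)) (Sum.inl (H.tgt h)) ≤ (2 * (τ - 1 + 1 / n)) * H.len h := by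
  have hn' : (0 : ℝ) < n := by exact_mod_cast hn
  set l := H.len h with hl
  set R := ρ (Sum.inl (H.src h)) (Sum.inl (H.tgt h)) with hR
  have h1 := hρ.mid n (fun i => Sum.inr (h, i)) (Sum.inl (H.src h)) (Sum.inl (H.tgt h))
  have h2 : (n : ℝ) * (n * l - l) ≤
      ∑ i : Fin n, ∑ j : Fin n, ρ (Sum.inr (h, i)) (Sum.inr (h, j)) := by
    have h3 : ∀ i : Fin n, (n : ℝ) * l - l ≤ ∑ j : Fin n, ρ (Sum.inr (h, i)) (Sum.inr (h, j)) := by
      intro i
      have h4 : ∀ j : Fin n, l - (if j = i then l else 0) ≤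
          ρ (Sum.inr (h, i)) (Sum.inr (h, j)) := by
        intro j
        by_cases hj : j = i
        · subst hj
          rw [if_pos rfl, sub_self]
          exact hρ.self_nonneg _
        · rw [if_neg hj, sub_zero]
          exact hw (.inr (h, ⟨(i, j), fun h => hj h.symm⟩))
      refine le_trans (le_of_eq ?_) (Finset.sum_le_sum fun j _ => h4 j)
      rw [Finset.sum_sub_distrib, Finset.sum_ite_eq' Finset.univ i (fun _ => l)]
      simp
    calc (n : ℝ) * (n * l - l) = ∑ _i : Fin n, ((n : ℝ) * l - l) := by simp; ring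
      _ ≤ _ := Finset.sum_le_sum fun i _ => h3 i
  have h5 : ∑ i : Fin n, (ρ (Sum.inl (H.src h)) (Sum.inr (h, i)) +
      ρ (Sum.inr (h, i)) (Sum.inl (H.tgt h)) - R) ≤ n * (τ * l - R) := by
    have h6 : ∀ i : Fin n, ρ (Sum.inl (H.src h)) (Sum.inr (h, i)) +
        ρ (Sum.inr (h, i)) (Sum.inl (H.tgt h)) - R ≤ τ * l - R := by
      intro i
      have h7 : ρ (Sum.inl (H.src h)) (Sum.inr (h, i)) ≤ τ * (l / 2) := he (h, (i, false))
      have h8 : ρ (Sum.inr (h, i)) (Sum.inl (H.tgt h)) ≤ τ * (l / 2) := he (h, (i, true))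
      linarith
    calc _ ≤ ∑ _i : Fin n, (τ * l - R) := Finset.sum_le_sum fun i _ => h6 i
      _ = n * (τ * l - R) := by simp; ring
  have h9 : (n : ℝ) * (n * l - l) ≤ (n : ℝ) ^ 2 / 2 * R + n * (n * (τ * l - R)) :=
    h2.trans (h1.trans (by
      have := mul_le_mul_of_nonneg_left h5 hn'.le
      linarith))
  have h10 : (n : ℝ) ^ 2 / 2 * R ≤ (n : ℝ) ^ 2 / 2 * ((2 * (τ - 1 + 1 / n)) * l) := by
    have h11 : (n : ℝ) ^ 2 / 2 * ((2 * (τ - 1 + 1 / n)) * l) =
        (n : ℝ) ^ 2 * (τ * l) - (n : ℝ) ^ 2 * l + n * l := by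
      field_simp
    rw [h11]
    nlinarith
  exact le_of_mul_le_mul_left h10 (by positivity)

/-- the iterated `K_{2,n}` glueing -/
noncomputable def tower2 (n : ℕ) : ℕ → WG
  | 0 => base
  | m + 1 => glue2 (tower2 n m) n

theorem tower2_fail {n : ℕ} (hn : 0 < n) {δ : ℝ} (hδ : 2 / (n : ℝ) ≤ δ / 2) :
    ∀ m, ∀ τ, δ ≤ 2 - τ → 1 < (2 - τ) * (3 / 2) ^ m → Fail (tower2 n m) τ := by
  have hn' : (0 : ℝ) < n := by exact_mod_cast hn
  have hδ0 : 0 < δ := by
    have : 0 < 2 / (n : ℝ) := by positivity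
    linarith
  intro m
  induction m with
  | zero => intro τ _ h; exact base_fail (by simp at h; linarith)
  | succ m ih =>
    intro τ h0 h1 ρ hρ he
    by_contra hc
    push Not at hc
    have h3 := step2 (H := tower2 n m) hn hρ he hc
    have h4 : 2 - 2 * (τ - 1 + 1 / (n : ℝ)) = 2 * (2 - τ) - 2 / (n : ℝ) := by ring
    have h5 : 3 / 2 * (2 - τ) ≤ 2 - 2 * (τ - 1 + 1 / (n : ℝ)) := by
      rw [h4]; linarith
    obtain ⟨i, hi⟩ := ih (2 * (τ - 1 + 1 / (n : ℝ))) (by linarith) (by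
      have h6 : (0 : ℝ) < (3 / 2) ^ m := by positivity
      have h7 := mul_le_mul_of_nonneg_right h5 h6.le
      rw [pow_succ] at h1
      linarith) (fun x y => ρ (Sum.inl x) (Sum.inl y)) (hρ.comap Sum.inl) h3
    exact absurd hi (not_lt.mpr (hc (.inl i)))

/-- the base of the induction: constant `2` at treewidth `2` -/
theorem base2 : ∀ η : ℝ, η < 2 → ∃ K : WG, Ok K 2 ∧ Fail K η := by
  intro η hη
  have hδ : 0 < 2 - η := by linarith
  obtain ⟨n, hn⟩ := exists_nat_gt (4 / (2 - η))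
  have hn0 : (0 : ℝ) < n := lt_trans (by positivity) hn
  have hnpos : 0 < n := by exact_mod_cast hn0
  obtain ⟨m, hm⟩ := pow_unbounded_of_one_lt (1 / (2 - η)) (by norm_num : (1 : ℝ) < 3 / 2)
  have hT : ∀ m, Ok (tower2 n m) 2 := by
    intro m
    induction m with
    | zero => exact base_ok (by omega)
    | succ m ihm => exact glue2_ok ⟨0, hnpos⟩ ihm le_rfl
  refine ⟨tower2 n m, hT m, tower2_fail hnpos (δ := 2 - η) ?_ m η le_rfl ?_⟩
  · rw [div_lt_iff₀ hδ] at hn
    rw [div_le_div_iff₀ hn0 two_pos]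
    linarith
  · rw [div_lt_iff₀ hδ] at hm
    linarith

end Vale.Agent.P235

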