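import Vale.Agent.P235.Final
import Vale.Agent.P235.K2N

/-! Even treewidth: start the induction from the `K_{2,n}` recursion. -/

namespace Vale.Agent.P235

theorem main2 : ∀ (k : ℕ) (η : ℝ), η < k + 2 → ∃ K : WG, Ok K (2 * k + 2) ∧ Fail K η := by
  intro k
  induction k with
  | zero => intro η h; exact base2 η (by simpa using h)
  | succ k ih =>
    intro η h
    push_cast at h
    exact main_step (c := k + 2) (by positivity) (by omega) ih η (by linarith)

theorem final2 (k : ℕ) (C : ℝ) (hC : C < k + 2) :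
    ∃ (V : Type) (_ : Finite V) (G : SimpleGraph V), G.Connected ∧ TreewidthLE G (2 * k + 2) ∧
      ∃ ℓ : Sym2 V → ℝ, (∀ z, 0 < ℓ z) ∧ ¬ EmbedsL1 (pathDist G ℓ) C := by
  obtain ⟨K, hK, hF⟩ := main2 k (max C 0)
    (max_lt hC (by have : (0:ℝ) ≤ k := Nat.cast_nonneg k; linarith))
  exact final_of hK hF

end Vale.Agent.P235
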