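import Vale.Agent.P235.K2N

/-! The base of the induction with constant `17/6` at treewidth `3`. -/

namespace Vale.Agent.P235

/-- replace every edge of `H` by a copy of the gadget: a hub, `n` points at height `1/2`, and for
each of them `n` midpoints with the hub at height `3/4` -/
noncomputable def glue3 (H : WG) (n : ℕ) : WG where
  V := H.V ⊕ (H.E × (Option (Fin n) ⊕ (Fin n × Fin n)))
  E := H.E × (Option (Fin n) ⊕ ((Fin n × Fin n) × Bool ⊕ (Fin n × Fin n)))
  P := H.P ⊕ (H.E × ({z : Fin n × Fin n // z.1 ≠ z.2} ⊕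
    (Fin n × {z : Fin n × Fin n // z.1 ≠ z.2})))
  src
    | (h, .inl _) => .inl (H.src h)
    | (h, .inr (.inl (_, false))) => .inr (h, .inl none)
    | (h, .inr (.inl ((i, _), true))) => .inr (h, .inl (some i))
    | (h, .inr (.inr w)) => .inr (h, .inr w)
  tgt
    | (h, .inl x) => .inr (h, .inl x)
    | (h, .inr (.inl (w, _))) => .inr (h, .inr w)
    | (h, .inr (.inr _)) => .inl (H.tgt h)
  len
    | (h, .inl _) => H.len h / 2
    | (h, .inr _) => H.len h / 4
  p
    | .inl i => .inl (H.p i)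
    | .inr (h, .inl z) => .inr (h, .inl (some z.1.1))
    | .inr (h, .inr (i, z)) => .inr (h, .inr (i, z.1.1))
  q
    | .inl i => .inl (H.q i)
    | .inr (h, .inl z) => .inr (h, .inl (some z.1.2))
    | .inr (h, .inr (i, z)) => .inr (h, .inr (i, z.1.2))
  D
    | .inl i => H.D i
    | .inr (h, .inl _) => H.len h
    | .inr (h, .inr _) => H.len h / 2

/-- the relation of the elimination order of `glue3` -/
def glue3R (H : WG) (n : ℕ) (RH : H.V → H.V → Prop) :
    (H.V ⊕ (H.E × (Option (Fin n) ⊕ (Fin n × Fin n)))) →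
    (H.V ⊕ (H.E × (Option (Fin n) ⊕ (Fin n × Fin n)))) → Prop
  | .inl a, .inl b => RH a b
  | .inl a, .inr (h, .inl _) => a = H.src h ∨ a = H.tgt h
  | .inl a, .inr (h, .inr _) => a = H.tgt h
  | .inr (h, .inl _), .inl a => a = H.src h ∨ a = H.tgt h
  | .inr (h, .inr _), .inl a => a = H.tgt h
  | .inr (_, .inl none), .inr (_, .inl none) => False
  | .inr (h, .inl none), .inr (h', .inl (some _)) => h = h'
  | .inr (h, .inl (some _)), .inr (h', .inl none) => h = h'
  | .inr (_, .inl (some _)), .inr (_, .inl (some _)) => False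
  | .inr (h, .inl none), .inr (h', .inr _) => h = h'
  | .inr (h, .inl (some i)), .inr (h', .inr (j, _)) => h = h' ∧ i = j
  | .inr (h, .inr _), .inr (h', .inl none) => h = h'
  | .inr (h, .inr (j, _)), .inr (h', .inl (some i)) => h = h' ∧ i = j
  | .inr (_, .inr _), .inr (_, .inr _) => False

/-- the ranks of the elimination order of `glue3` -/
def glue3Rk (H : WG) (n : ℕ) (rH : H.V → ℕ) (M : ℕ) :
    (H.V ⊕ (H.E × (Option (Fin n) ⊕ (Fin n × Fin n)))) → ℕ
  | .inl a => rH a
  | .inr (_, .inl none) => M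
  | .inr (_, .inl (some _)) => M + 1
  | .inr (_, .inr _) => M + 2

theorem glue3_el {H : WG} {wH : ℕ} (n : ℕ) {RH : H.V → H.V → Prop} {rH : H.V → ℕ} {r : H.V}
    (hH : El H wH RH rH r) {M : ℕ} (hM : ∀ a, rH a < M) (hfH : Finite H.V) {w : ℕ} (h1 : wH ≤ w)
    (h3 : 3 ≤ w) :
    El (glue3 H n) w (glue3R H n RH) (glue3Rk H n rH M) (Sum.inl r) where
  symm := by
    rintro (a | ⟨h, (_ | i) | ⟨i, c⟩⟩) (b | ⟨h', (_ | i') | ⟨i', c'⟩⟩) <;> simp only [glue3R]
    · exact hH.symm _ _
    all_goals first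
      | exact id
      | (intro h; exact h.symm)
      | (rintro ⟨h, h'⟩; exact ⟨h.symm, h'⟩)
  ne := by
    rintro (a | ⟨h, (_ | i) | ⟨i, c⟩⟩) (b | ⟨h', (_ | i') | ⟨i', c'⟩⟩) <;>
      simp only [glue3R, glue3Rk]
    · exact hH.ne _ _
    all_goals first
      | (intro h; exact h.elim)
      | (intro _; have := hM a; omega)
      | (intro _; have := hM b; omega)
      | (intro _; omega)
  edge := by
    rintro ⟨h, x | ⟨⟨i, c⟩, _ | _⟩ | ⟨i, c⟩⟩ <;> simp [glue3, glue3R]
  cl := by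
    have hst : ∀ h : H.E, ∀ a b : H.V, (a = H.src h ∨ a = H.tgt h) → (b = H.src h ∨ b = H.tgt h) →
        a ≠ b → RH a b := by
      rintro h a b (rfl | rfl) (rfl | rfl) hab
      · exact (hab rfl).elim
      · exact hH.edge h
      · exact hH.symm _ _ (hH.edge h)
      · exact (hab rfl).elim
    rintro (v | ⟨h, (_ | i) | ⟨i, c⟩⟩) (a | ⟨h', (_ | i') | ⟨i', c'⟩⟩)
      (b | ⟨h'', (_ | i'') | ⟨i'', c''⟩⟩) <;>
      simp only [glue3R, glue3Rk] <;> intro h1 h2 h3 h4 h5
    · exact hH.cl v a b h1 h2 h3 h4 (fun h => h5 (by rw [h]))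
    all_goals first
      | exact h1.elim
      | exact h2.elim
      | (exfalso; have := hM v; omega)
      | (exfalso; omega)
      | exact hst h a b h1 h2 (fun h => h5 (by rw [h]))
      | (rw [← h2]; exact Or.inr h1)
      | (rw [← h1]; exact Or.inr h2)
      | (subst h1; exact h2)
      | (subst h2; exact h1)
      | (exfalso; exact h5 (by rw [h1, h2]))
      | (subst h1; subst h2; exact (h5 rfl).elim)
      | (subst h1; exact Or.inr h2)
      | (subst h2; exact Or.inr h1)
      | (obtain ⟨rfl, rfl⟩ := h1; exact Or.inr h2)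
      | (obtain ⟨rfl, rfl⟩ := h2; exact Or.inr h1)
      | (obtain ⟨rfl, rfl⟩ := h1; exact h2)
      | (obtain ⟨rfl, rfl⟩ := h2; exact h1)
      | (obtain ⟨rfl, rfl⟩ := h1; exact h2.1)
      | (obtain ⟨rfl, rfl⟩ := h2; exact h1.symm)
      | (obtain ⟨rfl, rfl⟩ := h1; obtain ⟨rfl, rfl⟩ := h2; exact (h5 rfl).elim)
  card := by
    have : Finite H.V := hfH
    rintro (v | ⟨h, (_ | i) | ⟨i, c⟩⟩)
    · have hsub : {u | glue3R H n RH (Sum.inl v) u ∧ glue3Rk H n rH M u <
          glue3Rk H n rH M (Sum.inl v)} ⊆ Sum.inl '' {u | RH v u ∧ rH u < rH v} := by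
        rintro (a | ⟨h', (_ | i') | ⟨i', c'⟩⟩) ⟨k1, k2⟩
        · exact ⟨a, ⟨k1, k2⟩, rfl⟩
        all_goals simp only [glue3Rk] at k2
        all_goals have := hM v
        all_goals omega
      exact (Set.ncard_le_ncard hsub ((Set.toFinite _).image _)).trans
        ((Set.ncard_image_le (Set.toFinite _)).trans ((hH.card v).trans h1))
    · have hsub : {u | glue3R H n RH (Sum.inr (h, Sum.inl none)) u ∧ glue3Rk H n rH M u <
          glue3Rk H n rH M (Sum.inr (h, Sum.inl none))} ⊆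
          {Sum.inl (H.src h), Sum.inl (H.tgt h)} := by
        rintro (a | ⟨h', (_ | i') | ⟨i', c'⟩⟩) ⟨k1, k2⟩
        · rcases k1 with k1 | k1
          · left; rw [k1]
          · right; rw [k1]; rfl
        all_goals simp only [glue3Rk] at k2
        all_goals omega
      refine (Set.ncard_le_ncard hsub (Set.toFinite _)).trans ?_
      exact (Set.ncard_insert_le _ _).trans (by rw [Set.ncard_singleton]; omega)
    · have hsub : {u | glue3R H n RH (Sum.inr (h, Sum.inl (some i))) u ∧ glue3Rk H n rH M u <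
          glue3Rk H n rH M (Sum.inr (h, Sum.inl (some i)))} ⊆
          {Sum.inl (H.src h), Sum.inl (H.tgt h), Sum.inr (h, Sum.inl none)} := by
        rintro (a | ⟨h', (_ | i') | ⟨i', c'⟩⟩) ⟨k1, k2⟩
        · rcases k1 with k1 | k1
          · left; rw [k1]
          · right; left; rw [k1]
        · right; right
          have k3 : h = h' := k1
          rw [k3]; rfl
        · exact k1.elim
        · simp only [glue3Rk] at k2
          omega
      refine (Set.ncard_le_ncard hsub (Set.toFinite _)).trans ?_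
      exact (Set.ncard_insert_le _ _).trans ((Nat.add_le_add_right (Set.ncard_insert_le _ _) 1).trans
        (by rw [Set.ncard_singleton]; omega))
    · have hsub : {u | glue3R H n RH (Sum.inr (h, Sum.inr (i, c))) u ∧ glue3Rk H n rH M u <
          glue3Rk H n rH M (Sum.inr (h, Sum.inr (i, c)))} ⊆ {Sum.inl (H.tgt h),
            Sum.inr (h, Sum.inl none), Sum.inr (h, Sum.inl (some i))} := by
        rintro (a | ⟨h', (_ | i') | ⟨i', c'⟩⟩) ⟨k1, k2⟩
        · left; rw [show a = H.tgt h from k1]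
        · right; left
          have k3 : h = h' := k1
          rw [k3]
        · right; right
          obtain ⟨k3, k4⟩ : h = h' ∧ i' = i := k1
          rw [k3, k4]; rfl
        · exact k1.elim
      refine (Set.ncard_le_ncard hsub (Set.toFinite _)).trans ?_
      exact (Set.ncard_insert_le _ _).trans ((Nat.add_le_add_right (Set.ncard_insert_le _ _) 1).trans
        (by rw [Set.ncard_singleton]; omega))
  root := by
    rintro (v | ⟨h, (_ | i) | ⟨i, c⟩⟩) hc
    · obtain ⟨u, h1, h2⟩ := hH.root v (fun h => hc (by rw [h]))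
      exact ⟨Sum.inl u, h1, h2⟩
    all_goals refine ⟨Sum.inl (H.tgt h), ?_, ?_⟩
    all_goals first
      | (simp [glue3R]; done)
      | (simp only [glue3Rk]; have := hM (H.tgt h); omega)

theorem glue3_conn {H : WG} {n : ℕ} (i0 : Fin n)
    (hH : ∀ a b, Relation.EqvGen (fun a b => ∃ e, H.src e = a ∧ H.tgt e = b) a b) :
    ∀ a b, Relation.EqvGen (fun a b => ∃ e, (glue3 H n).src e = a ∧ (glue3 H n).tgt e = b)
      a b := by
  set S : (glue3 H n).V → (glue3 H n).V → Prop :=
    fun a b => ∃ e, (glue3 H n).src e = a ∧ (glue3 H n).tgt e = b with hS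
  have h1 : ∀ a b : H.V, Relation.EqvGen S (Sum.inl a) (Sum.inl b) := by
    intro a b
    induction hH a b with
    | rel x y hxy =>
      obtain ⟨h, rfl, rfl⟩ := hxy
      refine .trans _ (Sum.inr (h, Sum.inl none)) _ (.rel _ _ ⟨(h, .inl none), rfl, rfl⟩) ?_
      refine .trans _ (Sum.inr (h, Sum.inr (i0, i0))) _
        (.rel _ _ ⟨(h, .inr (.inl ((i0, i0), false))), rfl, rfl⟩) ?_
      exact .rel _ _ ⟨(h, .inr (.inr (i0, i0))), rfl, rfl⟩
    | refl x => exact .refl _
    | symm x y _ ih => exact .symm _ _ ih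
    | trans x y z _ _ ih1 ih2 => exact .trans _ _ _ ih1 ih2
  have h2 : ∀ z : (glue3 H n).V, ∃ a : H.V, Relation.EqvGen S z (Sum.inl a) := by
    rintro (a | ⟨h, x | w⟩)
    · exact ⟨a, .refl _⟩
    · exact ⟨H.src h, .symm _ _ (.rel _ _ ⟨(h, .inl x), rfl, rfl⟩)⟩
    · exact ⟨H.tgt h, .rel _ _ ⟨(h, .inr (.inr w)), rfl, rfl⟩⟩
  intro x y
  obtain ⟨a, ha⟩ := h2 x
  obtain ⟨b, hb⟩ := h2 y
  exact .trans _ _ _ ha (.trans _ _ _ (h1 a b) (.symm _ _ hb))

theorem glue3_wit {H : WG} {n : ℕ} (hlH : ∀ e, 0 < H.len e)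
    (hwH : ∀ i, ∃ g : H.V → ℝ, (∀ e, |g (H.src e) - g (H.tgt e)| ≤ H.len e) ∧
      H.D i ≤ g (H.p i) - g (H.q i)) :
    ∀ i, ∃ g : (glue3 H n).V → ℝ,
      (∀ e, |g ((glue3 H n).src e) - g ((glue3 H n).tgt e)| ≤ (glue3 H n).len e) ∧
      (glue3 H n).D i ≤ g ((glue3 H n).p i) - g ((glue3 H n).q i) := by
  classical
  have phi : ∀ i j k : Fin n, |(if k = i then (1:ℝ) else if k = j then -1 else 0)| ≤ 1 := by
    intro i j k
    split_ifs <;> norm_num
  rintro (i | ⟨h, ⟨⟨i, j⟩, hij⟩ | ⟨i, ⟨⟨a, b⟩, hab⟩⟩⟩)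
  · obtain ⟨g, hg1, hg2⟩ := hwH i
    refine ⟨fun z => match z with
      | .inl a => g a
      | .inr (h, .inl _) => (g (H.src h) + g (H.tgt h)) / 2
      | .inr (h, .inr _) => (g (H.src h) + 3 * g (H.tgt h)) / 4, ?_, hg2⟩
    rintro ⟨h, x | ⟨w, _ | _⟩ | w⟩
    all_goals have h0 := abs_le.mp (hg1 h)
    all_goals refine abs_le.mpr ?_
    all_goals simp only [glue3]
    all_goals constructor <;> linarith [h0.1, h0.2]
  · refine ⟨fun z => match z with
      | .inl _ => 0
      | .inr (_, .inl none) => 0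
      | .inr (h', .inl (some k)) => if h' = h then
          H.len h' / 2 * (if k = i then (1:ℝ) else if k = j then -1 else 0) else 0
      | .inr (h', .inr (k, _)) => if h' = h then
          H.len h' / 4 * (if k = i then (1:ℝ) else if k = j then -1 else 0) else 0, ?_, ?_⟩
    · rintro ⟨h', (_ | k) | ⟨⟨k, c⟩, _ | _⟩ | ⟨k, c⟩⟩
      all_goals have hl := hlH h'
      all_goals simp only [glue3]
      · rw [sub_zero, abs_zero]; linarith
      · by_cases hh : h' = h
        · rw [if_pos hh, zero_sub, abs_neg]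
          exact (abs_mul_le' (by linarith) (phi i j k)).trans (by linarith)
        · rw [if_neg hh, sub_zero, abs_zero]; linarith
      · by_cases hh : h' = h
        · rw [if_pos hh, zero_sub, abs_neg]
          exact (abs_mul_le' (by linarith) (phi i j k)).trans (by linarith)
        · rw [if_neg hh, sub_zero, abs_zero]; linarith
      · by_cases hh : h' = h
        · rw [if_pos hh, if_pos hh]
          have h1 : H.len h' / 2 * (if k = i then (1:ℝ) else if k = j then -1 else 0) -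
              H.len h' / 4 * (if k = i then (1:ℝ) else if k = j then -1 else 0) =
              H.len h' / 4 * (if k = i then (1:ℝ) else if k = j then -1 else 0) := by ring
          rw [h1]; exact (abs_mul_le' (by linarith) (phi i j k)).trans (by linarith)
        · rw [if_neg hh, if_neg hh, sub_zero, abs_zero]; linarith
      · by_cases hh : h' = h
        · rw [if_pos hh, sub_zero]
          exact (abs_mul_le' (by linarith) (phi i j k)).trans (by linarith)
        · rw [if_neg hh, sub_zero, abs_zero]; linarith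
    · have hji : j ≠ i := fun h => hij h.symm
      simp only [glue3, if_true]
      rw [if_neg hji]
      linarith
  · refine ⟨fun z => match z with
      | .inl _ => 0
      | .inr (_, .inl _) => 0
      | .inr (h', .inr (k, c)) => if h' = h ∧ k = i then
          H.len h' / 4 * (if c = a then (1:ℝ) else if c = b then -1 else 0) else 0, ?_, ?_⟩
    · rintro ⟨h', x | ⟨⟨k, c⟩, _ | _⟩ | ⟨k, c⟩⟩
      all_goals have hl := hlH h'
      all_goals simp only [glue3]
      · rw [sub_zero, abs_zero]; linarith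
      · by_cases hh : h' = h ∧ k = i
        · rw [if_pos hh, zero_sub, abs_neg]
          exact (abs_mul_le' (by linarith) (phi a b c)).trans (by linarith)
        · rw [if_neg hh, sub_zero, abs_zero]; linarith
      · by_cases hh : h' = h ∧ k = i
        · rw [if_pos hh, zero_sub, abs_neg]
          exact (abs_mul_le' (by linarith) (phi a b c)).trans (by linarith)
        · rw [if_neg hh, sub_zero, abs_zero]; linarith
      · by_cases hh : h' = h ∧ k = i
        · rw [if_pos hh, sub_zero]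
          exact (abs_mul_le' (by linarith) (phi a b c)).trans (by linarith)
        · rw [if_neg hh, sub_zero, abs_zero]; linarith
    · have hba : b ≠ a := fun h => hab h.symm
      simp only [glue3, and_self, if_true]
      rw [if_neg hba]
      linarith

theorem glue3_ok {H : WG} {w : ℕ} {n : ℕ} (i0 : Fin n) (hH : Ok H w) (h3 : 3 ≤ w) :
    Ok (glue3 H n) w := by
  have := hH.finV
  have := hH.finE
  have := hH.finP
  refine ⟨?_, ?_, ?_, ?_, ?_, glue3_wit hH.pos hH.wit, ?_, glue3_conn i0 hH.conn⟩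
  · show Finite (H.V ⊕ (H.E × (Option (Fin n) ⊕ (Fin n × Fin n))))
    infer_instance
  · show Finite (H.E × (Option (Fin n) ⊕ ((Fin n × Fin n) × Bool ⊕ (Fin n × Fin n))))
    infer_instance
  · show Finite (H.P ⊕ (H.E × ({z : Fin n × Fin n // z.1 ≠ z.2} ⊕
      (Fin n × {z : Fin n × Fin n // z.1 ≠ z.2}))))
    infer_instance
  · obtain ⟨h⟩ := hH.neE
    exact ⟨(h, .inl none)⟩
  · rintro ⟨h, x | x⟩
    all_goals have := hH.pos h
    all_goals simp only [glue3]
    all_goals linarith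
  · obtain ⟨RH, rH, r, hH'⟩ := hH.elim
    obtain ⟨M, hM⟩ := (Set.finite_range rH).bddAbove
    exact ⟨_, _, _, glue3_el n hH' (M := M + 1) (fun a => Nat.lt_succ_of_le (hM ⟨a, rfl⟩))
      hH.finV le_rfl h3⟩

theorem offdiag {V : Type} {ρ : V → V → ℝ} (n : ℕ) (y : Fin n → V) (l : ℝ)
    (h0 : ∀ i, 0 ≤ ρ (y i) (y i)) (h : ∀ i j, i ≠ j → l ≤ ρ (y i) (y j)) :
    (n : ℝ) * (n * l - l) ≤ ∑ i, ∑ j, ρ (y i) (y j) := by
  have h3 : ∀ i : Fin n, (n : ℝ) * l - l ≤ ∑ j : Fin n, ρ (y i) (y j) := by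
    intro i
    have h4 : ∀ j : Fin n, l - (if j = i then l else 0) ≤ ρ (y i) (y j) := by
      intro j
      by_cases hj : j = i
      · subst hj
        rw [if_pos rfl, sub_self]
        exact h0 _
      · rw [if_neg hj, sub_zero]
        exact h _ _ fun h => hj h.symm
    refine le_trans (le_of_eq ?_) (Finset.sum_le_sum fun j _ => h4 j)
    rw [Finset.sum_sub_distrib, Finset.sum_ite_eq' Finset.univ i (fun _ => l)]
    simp
  calc (n : ℝ) * (n * l - l) = ∑ _i : Fin n, ((n : ℝ) * l - l) := by simp; ring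
    _ ≤ _ := Finset.sum_le_sum fun i _ => h3 i

theorem step3 {H : WG} {n : ℕ} (hn : 0 < n) (hlH : ∀ e, 0 < H.len e) {τ τ' : ℝ}
    (hnum : (n : ℝ) * ((3/4) * τ + (11/8 + 16 * (n:ℝ)^2) * (τ - τ')) < (17/8) * (n - 1))
    {ρ : (glue3 H n).V → (glue3 H n).V → ℝ} (hρ : SP ρ)
    (he : ∀ e, ρ ((glue3 H n).src e) ((glue3 H n).tgt e) ≤ τ * (glue3 H n).len e)
    (hw : ∀ i, (glue3 H n).D i ≤ ρ ((glue3 H n).p i) ((glue3 H n).q i)) (h : H.E) :
    ρ (Sum.inl (H.src h)) (Sum.inl (H.tgt h)) ≤ τ' * H.len h := by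
  by_contra hc
  push Not at hc
  have hn' : (0 : ℝ) < n := by exact_mod_cast hn
  have hl := hlH h
  set l := H.len h with hldef
  set N : ℝ := (n : ℝ) with hN
  set R := ρ (Sum.inl (H.src h)) (Sum.inl (H.tgt h)) with hR
  have h1 := hρ.tri n (Sum.inl (H.src h)) (Sum.inl (H.tgt h)) (Sum.inr (h, Sum.inl none))
    (fun i => Sum.inr (h, Sum.inl (some i))) (fun i a => Sum.inr (h, Sum.inr (i, a)))
  have h2 : N * (N * l - l) ≤ ∑ i : Fin n, ∑ j : Fin n,
      ρ (Sum.inr (h, Sum.inl (some i))) (Sum.inr (h, Sum.inl (some j))) :=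
    offdiag n (fun i => Sum.inr (h, Sum.inl (some i))) l (fun i => hρ.self_nonneg _)
      fun i j hij => hw (.inr (h, .inl ⟨(i, j), hij⟩))
  have h3 : N * (N * (N * (l / 2) - l / 2)) ≤ ∑ i : Fin n, ∑ a : Fin n, ∑ b : Fin n,
      ρ (Sum.inr (h, Sum.inr (i, a))) (Sum.inr (h, Sum.inr (i, b))) := by
    calc N * (N * (N * (l / 2) - l / 2)) = ∑ _i : Fin n, (N * (N * (l / 2) - l / 2)) := by
          rw [Finset.sum_const, Finset.card_univ, Fintype.card_fin, nsmul_eq_mul]
      _ ≤ _ := Finset.sum_le_sum fun i _ =>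
        offdiag n (fun a => Sum.inr (h, Sum.inr (i, a))) (l / 2) (fun i => hρ.self_nonneg _)
          fun a b hab => hw (.inr (h, .inr (i, ⟨(a, b), hab⟩)))
  have e1 : ρ (Sum.inl (H.src h)) (Sum.inr (h, Sum.inl none)) ≤ τ * (l / 2) :=
    he (h, .inl none)
  have e2 : ∀ i, ρ (Sum.inl (H.src h)) (Sum.inr (h, Sum.inl (some i))) ≤ τ * (l / 2) :=
    fun i => he (h, .inl (some i))
  have e3 : ∀ i a, ρ (Sum.inr (h, Sum.inl none)) (Sum.inr (h, Sum.inr (i, a))) ≤ τ * (l / 4) :=
    fun i a => he (h, .inr (.inl ((i, a), false)))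
  have e4 : ∀ i a, ρ (Sum.inr (h, Sum.inl (some i))) (Sum.inr (h, Sum.inr (i, a))) ≤ τ * (l / 4) :=
    fun i a => he (h, .inr (.inl ((i, a), true)))
  have e5 : ∀ i a, ρ (Sum.inr (h, Sum.inr (i, a))) (Sum.inl (H.tgt h)) ≤ τ * (l / 4) :=
    fun i a => he (h, .inr (.inr (i, a)))
  have hsum : ∀ (F : Fin n → Fin n → ℝ) (B : ℝ), (∀ i a, F i a ≤ B) →
      ∑ i, ∑ a, F i a ≤ N * (N * B) := by
    intro F B hF
    calc ∑ i, ∑ a, F i a ≤ ∑ _i : Fin n, ∑ _a : Fin n, B :=
          Finset.sum_le_sum fun i _ => Finset.sum_le_sum fun a _ => hF i a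
      _ = N * (N * B) := by
          simp only [Finset.sum_const, Finset.card_univ, Fintype.card_fin, nsmul_eq_mul]
          rfl
  have h4 := hsum (fun i a => ((ρ (Sum.inr (h, Sum.inl none)) (Sum.inr (h, Sum.inr (i, a))) +
      ρ (Sum.inr (h, Sum.inr (i, a))) (Sum.inl (H.tgt h))) +
      (ρ (Sum.inr (h, Sum.inl (some i))) (Sum.inr (h, Sum.inr (i, a))) +
      ρ (Sum.inr (h, Sum.inr (i, a))) (Sum.inl (H.tgt h))) +
      (3/2) * (ρ (Sum.inl (H.src h)) (Sum.inr (h, Sum.inl none)) +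
        ρ (Sum.inr (h, Sum.inl none)) (Sum.inr (h, Sum.inr (i, a))) - R)))
      ((17/8) * (τ * l) - (3/2) * R) (by
        intro i a
        have := e3 i a
        have := e4 i a
        have := e5 i a
        linarith)
  have h5 := hsum (fun i a => exd ρ (Sum.inl (H.src h)) (Sum.inl (H.tgt h))
      (Sum.inr (h, Sum.inl none)) (Sum.inr (h, Sum.inl (some i))) (Sum.inr (h, Sum.inr (i, a))))
      (2 * (τ * l) - 2 * R) (by
        intro i a
        have := e2 i
        have := e3 i a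
        have := e4 i a
        have := e5 i a
        simp only [exd]
        linarith)
  have h2' := mul_le_mul_of_nonneg_left h2 hn'.le
  have h4' := mul_le_mul_of_nonneg_left h4 hn'.le
  have h5' := mul_le_mul_of_nonneg_left h5 (by positivity : 0 ≤ 8 * N ^ 3)
  have h6 : N * (N * (N * l - l)) + (9/4) * (N * (N * (N * (l / 2) - l / 2))) ≤
      N ^ 3 / 8 * R + N * (N * (N * ((17/8) * (τ * l) - (3/2) * R))) +
        8 * N ^ 3 * (N * (N * (2 * (τ * l) - 2 * R))) := by
    refine le_trans ?_ (h1.trans ?_)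
    · exact add_le_add h2' (mul_le_mul_of_nonneg_left h3 (by norm_num))
    · exact add_le_add (add_le_add le_rfl h4') h5'
  have a0 : 0 ≤ (11/8 + 16 * N ^ 2) * (R - τ' * l) :=
    mul_nonneg (by positivity) (by linarith)
  have a1 : N ^ 3 * ((17/8) * (τ * l) - (11/8) * R + 16 * N ^ 2 * (τ * l - R)) ≤
      N ^ 3 * (((3/4) * τ + (11/8 + 16 * N ^ 2) * (τ - τ')) * l) :=
    mul_le_mul_of_nonneg_left (by linarith) (by positivity)
  have a2 := mul_lt_mul_of_pos_left hnum (by positivity : 0 < N ^ 2 * l)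
  linarith

/-- the iterated `glue3` -/
noncomputable def tower3 (n : ℕ) : ℕ → WG
  | 0 => base
  | m + 1 => glue3 (tower3 n m) n

theorem tower3_fail {n : ℕ} (hn : 0 < n) {η θ : ℝ} (hθ : 0 < θ) (hθ1 : θ < 1)
    (hnum : (n : ℝ) * ((3/4) * η + (11/8 + 16 * (n:ℝ)^2) * (η * (1 - θ))) < (17/8) * (n - 1))
    (hpos : ∀ m e, 0 < (tower3 n m).len e) :
    ∀ m, ∀ τ, 0 ≤ τ → τ ≤ η → τ * θ ^ m < 1 → Fail (tower3 n m) τ := by
  have hn' : (0 : ℝ) < n := by exact_mod_cast hn
  intro m
  induction m with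
  | zero => intro τ _ _ h; exact base_fail (by simpa using h)
  | succ m ih =>
    intro τ h0 h1 h2 ρ hρ he
    by_contra hc
    push Not at hc
    have h3 := step3 (H := tower3 n m) (τ := τ) (τ' := θ * τ) hn (hpos m) (by
      refine lt_of_le_of_lt (mul_le_mul_of_nonneg_left ?_ hn'.le) hnum
      have h4 : τ - θ * τ ≤ η * (1 - θ) := by nlinarith
      have h5 := mul_le_mul_of_nonneg_left h4 (by positivity : 0 ≤ 11/8 + 16 * (n:ℝ)^2)
      linarith) hρ he hc
    obtain ⟨i, hi⟩ := ih (θ * τ) (mul_nonneg hθ.le h0) (by nlinarith) (by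
      rw [pow_succ] at h2; linarith) (fun x y => ρ (Sum.inl x) (Sum.inl y))
      (hρ.comap Sum.inl) h3
    exact absurd hi (not_lt.mpr (hc (.inl i)))

/-- the base of the induction: constant `17/6` at treewidth `3` -/
theorem base3 : ∀ η : ℝ, η < 17/6 → ∃ K : WG, Ok K 3 ∧ Fail K η := by
  intro η₀ hη₀
  obtain ⟨η, hη1, hη2, hη3⟩ : ∃ η : ℝ, 1 ≤ η ∧ η₀ ≤ η ∧ η < 17/6 :=
    ⟨max η₀ 1, le_max_right _ _, le_max_left _ _, max_lt hη₀ (by norm_num)⟩
  have hη0 : 0 < η := by linarith
  have hδ : 0 < 17/8 - (3/4) * η := by linarith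
  obtain ⟨n, hn⟩ := exists_nat_gt ((17/8) / (17/8 - (3/4) * η))
  have hn0 : (0 : ℝ) < n := lt_trans (by positivity) hn
  have hnpos : 0 < n := by exact_mod_cast hn0
  rw [div_lt_iff₀ hδ] at hn
  obtain ⟨g, hg⟩ : ∃ g : ℝ, g = n * (17/8 - (3/4) * η) - 17/8 := ⟨_, rfl⟩
  have hg0 : 0 < g := by rw [hg]; linarith
  obtain ⟨M, hM⟩ : ∃ M : ℝ, M = n * (11/8 + 16 * (n:ℝ)^2) * η := ⟨_, rfl⟩
  have hM0 : 0 < M := by rw [hM]; positivity
  have hθ0 : 0 < M / (M + g) := by positivity
  have hθ1 : M / (M + g) < 1 := by rw [div_lt_one (by positivity)]; linarith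
  have hθ2 : M * (1 - M / (M + g)) < g := by
    have h1 : M * (1 - M / (M + g)) = g * (M / (M + g)) := by field_simp; ring
    rw [h1]
    nlinarith
  obtain ⟨m, hm⟩ := exists_pow_lt_of_lt_one (one_div_pos.mpr hη0) hθ1
  have hT : ∀ m, Ok (tower3 n m) 3 := by
    intro m
    induction m with
    | zero => exact base_ok (by omega)
    | succ m ihm => exact glue3_ok ⟨0, hnpos⟩ ihm le_rfl
  refine ⟨tower3 n m, hT m, Fail.mono ?_ (hT m).pos hη2⟩
  refine tower3_fail hnpos hθ0 hθ1 ?_ (fun m => (hT m).pos) m η hη0.le le_rfl ?_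
  · have h1 : (n : ℝ) * ((3/4) * η + (11/8 + 16 * (n:ℝ)^2) * (η * (1 - M / (M + g)))) =
        n * ((3/4) * η) + M * (1 - M / (M + g)) := by
      rw [hM]; ring
    rw [h1]
    linarith
  · rw [lt_div_iff₀ hη0] at hm
    linarith

theorem main3 : ∀ (k : ℕ) (η : ℝ), η < k + 17/6 → ∃ K : WG, Ok K (2 * k + 3) ∧ Fail K η := by
  intro k
  induction k with
  | zero => intro η h; exact base3 η (by simpa using h)
  | succ k ih =>
    intro η h
    push_cast at h
    exact main_step (c := k + 17/6) (by positivity) (by omega) ih η (by linarith)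

end Vale.Agent.P235
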