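import Vale.Agent.P235.Final2
import Vale.Agent.P235.K3

/-! Odd treewidth at least three: start the induction from the treewidth three gadget. -/

namespace Vale.Agent.P235

theorem final3 (k : ℕ) (C : ℝ) (hC : C < k + 17/6) :
    ∃ (V : Type) (_ : Finite V) (G : SimpleGraph V), G.Connected ∧ TreewidthLE G (2 * k + 3) ∧
      ∃ ℓ : Sym2 V → ℝ, (∀ z, 0 < ℓ z) ∧ ¬ EmbedsL1 (pathDist G ℓ) C := by
  obtain ⟨K, hK, hF⟩ := main3 k (max C 0)
    (max_lt hC (by have : (0:ℝ) ≤ k := Nat.cast_nonneg k; linarith))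
  exact final_of hK hF

end Vale.Agent.P235
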