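import Vale.Agent.P235.SixPt

/-! Weighted graphs with witness pairs, and the glueing operation. -/

namespace Vale.Agent.P235

/-- a weighted (multi)graph with a set of witness pairs -/
structure WG where
  V : Type
  E : Type
  P : Type
  src : E → V
  tgt : E → V
  len : E → ℝ
  p : P → V
  q : P → V
  D : P → ℝ

/-- no semimetric satisfying the six-point inequality is at most `η · len` on all edges and at least
`D` on all witness pairs -/
def Fail (K : WG) (η : ℝ) : Prop :=
  ∀ ρ : K.V → K.V → ℝ, SP ρ → (∀ e, ρ (K.src e) (K.tgt e) ≤ η * K.len e) →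
    ∃ i, ρ (K.p i) (K.q i) < K.D i

/-- data of an elimination order -/
structure El (K : WG) (w : ℕ) (R : K.V → K.V → Prop) (rk : K.V → ℕ) (r : K.V) : Prop where
  symm : ∀ u v, R u v → R v u
  ne : ∀ u v, R u v → rk u ≠ rk v
  edge : ∀ e, R (K.src e) (K.tgt e)
  cl : ∀ v a b, R v a → R v b → rk a < rk v → rk b < rk v → a ≠ b → R a b
  card : ∀ v, {u | R v u ∧ rk u < rk v}.ncard ≤ w
  root : ∀ v, v ≠ r → ∃ u, R v u ∧ rk u < rk v

/-- the standing assumptions on a weighted graph -/
structure Ok (K : WG) (w : ℕ) : Prop where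
  finV : Finite K.V
  finE : Finite K.E
  finP : Finite K.P
  neE : Nonempty K.E
  pos : ∀ e, 0 < K.len e
  wit : ∀ i, ∃ g : K.V → ℝ, (∀ e, |g (K.src e) - g (K.tgt e)| ≤ K.len e) ∧
    K.D i ≤ g (K.p i) - g (K.q i)
  elim : ∃ R rk r, El K w R rk r
  conn : ∀ a b, Relation.EqvGen (fun a b => ∃ e, K.src e = a ∧ K.tgt e = b) a b

/-- replace every edge of `H` by a copy of the gadget built on `K` -/
noncomputable def glue (H K : WG) (A : ℝ) : WG where
  V := H.V ⊕ (H.E × (K.V ⊕ (K.E × Bool)))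
  E := H.E × (K.V ⊕ ((K.E × Bool × Bool) ⊕ (K.E × Bool)))
  P := H.P ⊕ (H.E × (K.P ⊕ K.E))
  src
    | (h, .inl _) => .inl (H.src h)
    | (h, .inr (.inl (e, _, false))) => .inr (h, .inl (K.src e))
    | (h, .inr (.inl (e, _, true))) => .inr (h, .inl (K.tgt e))
    | (h, .inr (.inr y)) => .inr (h, .inr y)
  tgt
    | (h, .inl v) => .inr (h, .inl v)
    | (h, .inr (.inl (e, i, _))) => .inr (h, .inr (e, i))
    | (h, .inr (.inr _)) => .inl (H.tgt h)
  len
    | (h, .inl _) => H.len h / 2
    | (h, .inr (.inl (e, _, _))) => H.len h * (K.len e / (4 * A))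
    | (h, .inr (.inr (e, _))) => H.len h * (1 / 2 - K.len e / (4 * A))
  p
    | .inl i => .inl (H.p i)
    | .inr (h, .inl i) => .inr (h, .inl (K.p i))
    | .inr (h, .inr e) => .inr (h, .inr (e, false))
  q
    | .inl i => .inl (H.q i)
    | .inr (h, .inl i) => .inr (h, .inl (K.q i))
    | .inr (h, .inr e) => .inr (h, .inr (e, true))
  D
    | .inl i => H.D i
    | .inr (h, .inl i) => H.len h * (K.D i / (2 * A))
    | .inr (h, .inr e) => H.len h * (2 * (K.len e / (4 * A)))

/-- the relation of the elimination order of `glue` -/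
def glueR (H K : WG) (RH : H.V → H.V → Prop) (RK : K.V → K.V → Prop) :
    (H.V ⊕ (H.E × (K.V ⊕ (K.E × Bool)))) → (H.V ⊕ (H.E × (K.V ⊕ (K.E × Bool)))) → Prop
  | .inl a, .inl b => RH a b
  | .inl a, .inr (h, .inl _) => a = H.src h ∨ a = H.tgt h
  | .inl a, .inr (h, .inr _) => a = H.tgt h
  | .inr (h, .inl _), .inl a => a = H.src h ∨ a = H.tgt h
  | .inr (h, .inr _), .inl a => a = H.tgt h
  | .inr (h, .inl v), .inr (h', .inl v') => h = h' ∧ RK v v'
  | .inr (h, .inl v), .inr (h', .inr (e, _)) => h = h' ∧ (v = K.src e ∨ v = K.tgt e)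
  | .inr (h, .inr (e, _)), .inr (h', .inl v) => h = h' ∧ (v = K.src e ∨ v = K.tgt e)
  | .inr (_, .inr _), .inr (_, .inr _) => False

/-- the ranks of the elimination order of `glue` -/
def glueRk (H K : WG) (rH : H.V → ℕ) (rK : K.V → ℕ) (M N : ℕ) :
    (H.V ⊕ (H.E × (K.V ⊕ (K.E × Bool)))) → ℕ
  | .inl a => rH a
  | .inr (_, .inl v) => M + rK v
  | .inr (_, .inr _) => M + N

theorem glue_el {H K : WG} {wH wK : ℕ} (A : ℝ) {RH : H.V → H.V → Prop} {rH : H.V → ℕ} {r : H.V}
    (hH : El H wH RH rH r) {RK : K.V → K.V → Prop} {rK : K.V → ℕ} {r' : K.V}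
    (hK : El K wK RK rK r') {M N : ℕ} (hM : ∀ a, rH a < M) (hN : ∀ a, rK a < N)
    (hfH : Finite H.V) (hfK : Finite K.V) {w : ℕ} (h1 : wH ≤ w) (h2 : wK + 2 ≤ w) (h3 : 3 ≤ w) :
    El (glue H K A) w (glueR H K RH RK) (glueRk H K rH rK M N) (Sum.inl r) where
  symm := by
    rintro (a | ⟨h, v | ⟨e, i⟩⟩) (b | ⟨h', v' | ⟨e', i'⟩⟩) <;> simp only [glueR]
    · exact hH.symm _ _
    · exact id
    · exact id
    · exact id
    · rintro ⟨rfl, h⟩; exact ⟨rfl, hK.symm _ _ h⟩
    · rintro ⟨rfl, h⟩; exact ⟨rfl, h⟩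
    · exact id
    · rintro ⟨rfl, h⟩; exact ⟨rfl, h⟩
    · exact id
  ne := by
    rintro (a | ⟨h, v | ⟨e, i⟩⟩) (b | ⟨h', v' | ⟨e', i'⟩⟩) <;> simp only [glueR, glueRk]
    · exact hH.ne _ _
    · intro _; have := hM a; omega
    · intro _; have := hM a; omega
    · intro _; have := hM b; omega
    · rintro ⟨rfl, h⟩; have := hK.ne _ _ h; omega
    · intro _; have := hN v; omega
    · intro _; have := hM b; omega
    · intro _; have := hN v'; omega
    · intro h; exact h.elim
  edge := by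
    rintro ⟨h, v | ⟨e, i, _ | _⟩ | ⟨e, i⟩⟩ <;> simp [glue, glueR]
  cl := by
    have hst : ∀ h : H.E, ∀ a b : H.V, (a = H.src h ∨ a = H.tgt h) → (b = H.src h ∨ b = H.tgt h) →
        a ≠ b → RH a b := by
      rintro h a b (rfl | rfl) (rfl | rfl) hab
      · exact (hab rfl).elim
      · exact hH.edge h
      · exact hH.symm _ _ (hH.edge h)
      · exact (hab rfl).elim
    have hst' : ∀ h : K.E, ∀ a b : K.V, (a = K.src h ∨ a = K.tgt h) → (b = K.src h ∨ b = K.tgt h) →
        a ≠ b → RK a b := by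
      rintro h a b (rfl | rfl) (rfl | rfl) hab
      · exact (hab rfl).elim
      · exact hK.edge h
      · exact hK.symm _ _ (hK.edge h)
      · exact (hab rfl).elim
    rintro (c | ⟨h, v | ⟨e, i⟩⟩) (a | ⟨h', v' | ⟨e', i'⟩⟩) (b | ⟨h'', v'' | ⟨e'', i''⟩⟩) <;>
      simp only [glueR, glueRk] <;> intro h1 h2 h3 h4 h5
    · exact hH.cl c a b h1 h2 h3 h4 (fun h => h5 (by rw [h]))
    · have := hM c; omega
    · have := hM c; omega
    · have := hM c; omega
    · have := hM c; omega
    · have := hM c; omega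
    · have := hM c; omega
    · have := hM c; omega
    · have := hM c; omega
    · exact hst h a b h1 h2 (fun h => h5 (by rw [h]))
    · rw [← h2.1]; exact h1
    · have := hN v; omega
    · rw [← h1.1]; exact h2
    · exact ⟨h1.1.symm.trans h2.1, hK.cl v v' v'' h1.2 h2.2 (by omega) (by omega)
        (fun h => h5 (by rw [h, ← h1.1, ← h2.1]))⟩
    · have := hN v; omega
    · have := hN v; omega
    · have := hN v; omega
    · have := hN v; omega
    · exact (h5 (by rw [h1, h2])).elim
    · rw [← h2.1]; exact Or.inr h1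
    · exact h2.elim
    · rw [← h1.1]; exact Or.inr h2
    · exact ⟨h1.1.symm.trans h2.1, hst' e v' v'' h1.2 h2.2
        (fun h => h5 (by rw [h, ← h1.1, ← h2.1]))⟩
    · exact h2.elim
    · exact h1.elim
    · exact h1.elim
    · exact h2
  card := by
    have : Finite H.V := hfH
    have : Finite K.V := hfK
    rintro (c | ⟨h, v | ⟨e, i⟩⟩)
    · have hsub : {u | glueR H K RH RK (Sum.inl c) u ∧ glueRk H K rH rK M N u <
          glueRk H K rH rK M N (Sum.inl c)} ⊆ Sum.inl '' {u | RH c u ∧ rH u < rH c} := by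
        rintro (a | ⟨h', v' | ⟨e', i'⟩⟩) ⟨k1, k2⟩
        · exact ⟨a, ⟨k1, k2⟩, rfl⟩
        · simp only [glueRk] at k2; have := hM c; omega
        · simp only [glueRk] at k2; have := hM c; omega
      exact (Set.ncard_le_ncard hsub ((Set.toFinite _).image _)).trans
        ((Set.ncard_image_le (Set.toFinite _)).trans ((hH.card c).trans h1))
    · have hsub : {u | glueR H K RH RK (Sum.inr (h, Sum.inl v)) u ∧ glueRk H K rH rK M N u <
          glueRk H K rH rK M N (Sum.inr (h, Sum.inl v))} ⊆ insert (Sum.inl (H.src h))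
            (insert (Sum.inl (H.tgt h)) ((fun v' => Sum.inr (h, Sum.inl v')) ''
              {u | RK v u ∧ rK u < rK v})) := by
        rintro (a | ⟨h', v' | ⟨e', i'⟩⟩) ⟨k1, k2⟩
        · rcases k1 with k1 | k1
          · left; rw [k1]
          · right; left; rw [k1]
        · right; right
          simp only [glueRk] at k2
          exact ⟨v', ⟨k1.2, by omega⟩, by rw [k1.1]⟩
        · simp only [glueRk] at k2; have := hN v; omega
      refine (Set.ncard_le_ncard hsub ((((Set.toFinite _).image _).insert _).insert _)).trans ?_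
      refine (Set.ncard_insert_le _ _).trans ?_
      refine (Nat.add_le_add_right (Set.ncard_insert_le _ _) 1).trans ?_
      have h6 := (Set.ncard_image_le (f := fun v' => (Sum.inr (h, Sum.inl v') :
        H.V ⊕ (H.E × (K.V ⊕ (K.E × Bool))))) (Set.toFinite {u | RK v u ∧ rK u < rK v})).trans
        (hK.card v)
      omega
    · have hsub : {u | glueR H K RH RK (Sum.inr (h, Sum.inr (e, i))) u ∧ glueRk H K rH rK M N u <
          glueRk H K rH rK M N (Sum.inr (h, Sum.inr (e, i)))} ⊆ {Sum.inl (H.tgt h),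
            Sum.inr (h, Sum.inl (K.src e)), Sum.inr (h, Sum.inl (K.tgt e))} := by
        rintro (a | ⟨h', v' | ⟨e', i'⟩⟩) ⟨k1, k2⟩
        · left; rw [show a = H.tgt h from k1]
        · obtain ⟨rfl, rfl | rfl⟩ := k1
          · right; left; rfl
          · right; right; rfl
        · exact k1.elim
      refine (Set.ncard_le_ncard hsub (Set.toFinite _)).trans ?_
      exact (Set.ncard_insert_le _ _).trans ((Nat.add_le_add_right (Set.ncard_insert_le _ _) 1).trans
        (by rw [Set.ncard_singleton]; omega))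
  root := by
    rintro (c | ⟨h, v | ⟨e, i⟩⟩) hc
    · obtain ⟨u, h1, h2⟩ := hH.root c (fun h => hc (by rw [h]))
      exact ⟨Sum.inl u, h1, h2⟩
    · refine ⟨Sum.inl (H.tgt h), ?_, ?_⟩
      · simp [glueR]
      · simp only [glueRk]; have := hM (H.tgt h); omega
    · refine ⟨Sum.inl (H.tgt h), ?_, ?_⟩
      · simp [glueR]
      · simp only [glueRk]; have := hM (H.tgt h); omega

end Vale.Agent.P235
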