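import Vale.Agent.P235.K2N

/-! The gadget of width `3`: a hub `r`, `n` points `z_i` in the middle, and `n` midpoints `y_ia`
between `r` and `z_i`. -/

namespace Vale.Agent.P235

/-- ordered pairs of different indices -/
abbrev Pr (n : ℕ) : Type := {z : Fin n × Fin n // z.1 ≠ z.2}

/-- the inner vertices: `r`, `z i`, `y i a` -/
abbrev In3 (n : ℕ) : Type := Unit ⊕ (Fin n ⊕ (Fin n × Fin n))

/-- replace every edge `s - t` of `H` (length `l`) by: `s - r` and `s - z i` of length `l / 2`,
`r - y i a`, `z i - y i a` and `y i a - t` of length `l / 4`; new witness pairs `z i, z j`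
(distance `l`) and `y i a, y i b` (distance `l / 2`) -/
noncomputable def glue3 (H : WG) (n : ℕ) : WG where
  V := H.V ⊕ (H.E × In3 n)
  E := H.E × (Unit ⊕ (Fin n ⊕ ((Fin n × Fin n) ⊕ ((Fin n × Fin n) ⊕ (Fin n × Fin n)))))
  P := H.P ⊕ (H.E × (Pr n ⊕ (Fin n × Pr n)))
  src
    | (h, .inl _) => .inl (H.src h)
    | (h, .inr (.inl _)) => .inl (H.src h)
    | (h, .inr (.inr (.inl _))) => .inr (h, .inl ())
    | (h, .inr (.inr (.inr (.inl y)))) => .inr (h, .inr (.inl y.1))
    | (h, .inr (.inr (.inr (.inr y)))) => .inr (h, .inr (.inr y))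
  tgt
    | (h, .inl _) => .inr (h, .inl ())
    | (h, .inr (.inl i)) => .inr (h, .inr (.inl i))
    | (h, .inr (.inr (.inl y))) => .inr (h, .inr (.inr y))
    | (h, .inr (.inr (.inr (.inl y)))) => .inr (h, .inr (.inr y))
    | (h, .inr (.inr (.inr (.inr _)))) => .inl (H.tgt h)
  len
    | (h, .inl _) => H.len h / 2
    | (h, .inr (.inl _)) => H.len h / 2
    | (h, .inr (.inr (.inl _))) => H.len h / 4
    | (h, .inr (.inr (.inr (.inl _)))) => H.len h / 4
    | (h, .inr (.inr (.inr (.inr _)))) => H.len h / 4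
  p
    | .inl i => .inl (H.p i)
    | .inr (h, .inl z) => .inr (h, .inr (.inl z.1.1))
    | .inr (h, .inr (i, z)) => .inr (h, .inr (.inr (i, z.1.1)))
  q
    | .inl i => .inl (H.q i)
    | .inr (h, .inl z) => .inr (h, .inr (.inl z.1.2))
    | .inr (h, .inr (i, z)) => .inr (h, .inr (.inr (i, z.1.2)))
  D
    | .inl i => H.D i
    | .inr (h, .inl _) => H.len h
    | .inr (h, .inr _) => H.len h / 2

/-- the relation of the elimination order of `glue3` -/
def glue3R (H : WG) (n : ℕ) (RH : H.V → H.V → Prop) :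
    (H.V ⊕ (H.E × In3 n)) → (H.V ⊕ (H.E × In3 n)) → Prop
  | .inl a, .inl b => RH a b
  | .inl a, .inr (h, .inl _) => a = H.src h ∨ a = H.tgt h
  | .inl a, .inr (h, .inr (.inl _)) => a = H.src h ∨ a = H.tgt h
  | .inl a, .inr (h, .inr (.inr _)) => a = H.tgt h
  | .inr (h, .inl _), .inl a => a = H.src h ∨ a = H.tgt h
  | .inr (h, .inr (.inl _)), .inl a => a = H.src h ∨ a = H.tgt h
  | .inr (h, .inr (.inr _)), .inl a => a = H.tgt h
  | .inr (_, .inl _), .inr (_, .inl _) => False
  | .inr (h, .inl _), .inr (h', .inr (.inl _)) => h = h'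
  | .inr (h, .inl _), .inr (h', .inr (.inr _)) => h = h'
  | .inr (h, .inr (.inl _)), .inr (h', .inl _) => h = h'
  | .inr (h, .inr (.inr _)), .inr (h', .inl _) => h = h'
  | .inr (_, .inr (.inl _)), .inr (_, .inr (.inl _)) => False
  | .inr (h, .inr (.inl i)), .inr (h', .inr (.inr y)) => h = h' ∧ i = y.1
  | .inr (h, .inr (.inr y)), .inr (h', .inr (.inl i)) => h = h' ∧ i = y.1
  | .inr (_, .inr (.inr _)), .inr (_, .inr (.inr _)) => False

/-- the ranks of the elimination order of `glue3` -/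
def glue3Rk (H : WG) (n : ℕ) (rH : H.V → ℕ) (M : ℕ) : (H.V ⊕ (H.E × In3 n)) → ℕ
  | .inl a => rH a
  | .inr (_, .inl _) => M
  | .inr (_, .inr (.inl _)) => M + 1
  | .inr (_, .inr (.inr _)) => M + 2

theorem glue3_el {H : WG} {wH : ℕ} (n : ℕ) {RH : H.V → H.V → Prop} {rH : H.V → ℕ} {r : H.V}
    (hH : El H wH RH rH r) {M : ℕ} (hM : ∀ a, rH a < M) (hfH : Finite H.V) {w : ℕ} (h1 : wH ≤ w)
    (h3 : 3 ≤ w) :
    El (glue3 H n) w (glue3R H n RH) (glue3Rk H n rH M) (Sum.inl r) where
  symm := by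
    rintro (a | ⟨h, _ | i | y⟩) (b | ⟨h', _ | i' | y'⟩) <;> simp only [glue3R]
    · exact hH.symm _ _
    all_goals first
      | exact id
      | exact fun h => h.symm
      | (rintro ⟨rfl, h⟩; exact ⟨rfl, h⟩)
  ne := by
    rintro (a | ⟨h, _ | i | y⟩) (b | ⟨h', _ | i' | y'⟩) <;> simp only [glue3R, glue3Rk]
    · exact hH.ne _ _
    all_goals intro hh
    all_goals first
      | exact hh.elim
      | (have := hM a; omega)
      | (have := hM b; omega)
      | omega
  edge := by
    rintro ⟨h, _ | i | y | y | y⟩ <;> simp [glue3, glue3R]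
  cl := by
    have hst : ∀ h : H.E, ∀ a b : H.V, (a = H.src h ∨ a = H.tgt h) → (b = H.src h ∨ b = H.tgt h) →
        a ≠ b → RH a b := by
      rintro h a b (rfl | rfl) (rfl | rfl) hab
      · exact (hab rfl).elim
      · exact hH.edge h
      · exact hH.symm _ _ (hH.edge h)
      · exact (hab rfl).elim
    rintro (c | ⟨h, _ | i | y⟩) (a | ⟨h', _ | i' | y'⟩) (b | ⟨h'', _ | i'' | y''⟩) <;>
      simp only [glue3R, glue3Rk] <;> intro h1 h2 h3 h4 h5
    · exact hH.cl c a b h1 h2 h3 h4 (fun h => h5 (by rw [h]))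
    all_goals first
      | exact h1.elim
      | exact h2.elim
      | (exfalso; have := hM c; omega)
      | (exfalso; omega)
      | exact hst h a b h1 h2 (fun h => h5 (by rw [h]))
      | (subst h2; exact Or.inr h1)
      | (subst h1; exact Or.inr h2)
      | (subst h1; exact h2)
      | (subst h2; exact h1)
      | (obtain ⟨rfl, rfl⟩ := h1; exact Or.inr h2)
      | (obtain ⟨rfl, rfl⟩ := h2; exact Or.inr h1)
      | (subst h1; exact Or.inr h2)
      | (subst h2; exact Or.inr h1)
      | (subst h1; obtain ⟨rfl, rfl⟩ := h2; rfl)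
      | (subst h2; obtain ⟨rfl, rfl⟩ := h1; rfl)
      | (obtain ⟨rfl, rfl⟩ := h1; obtain ⟨rfl, rfl⟩ := h2; exact (h5 rfl).elim)
      | (subst h1; subst h2; exact (h5 rfl).elim)
      | exact (h5 (by rw [h1, h2])).elim
  card := by
    have : Finite H.V := hfH
    rintro (c | ⟨h, _ | i | y⟩)
    · have hsub : {u | glue3R H n RH (Sum.inl c) u ∧ glue3Rk H n rH M u <
          glue3Rk H n rH M (Sum.inl c)} ⊆ Sum.inl '' {u | RH c u ∧ rH u < rH c} := by
        rintro (a | ⟨h', _ | i' | y'⟩) ⟨k1, k2⟩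
        · exact ⟨a, ⟨k1, k2⟩, rfl⟩
        all_goals simp only [glue3Rk] at k2; have := hM c; omega
      exact (Set.ncard_le_ncard hsub ((Set.toFinite _).image _)).trans
        ((Set.ncard_image_le (Set.toFinite _)).trans ((hH.card c).trans h1))
    · have hsub : {u | glue3R H n RH (Sum.inr (h, Sum.inl ())) u ∧ glue3Rk H n rH M u <
          glue3Rk H n rH M (Sum.inr (h, Sum.inl ()))} ⊆ {Sum.inl (H.src h), Sum.inl (H.tgt h)} := by
        rintro (a | ⟨h', _ | i' | y'⟩) ⟨k1, k2⟩
        · rcases k1 with k1 | k1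
          · left; rw [k1]
          · right; rw [k1]; rfl
        all_goals simp only [glue3Rk] at k2; omega
      refine (Set.ncard_le_ncard hsub (Set.toFinite _)).trans ?_
      exact (Set.ncard_insert_le _ _).trans (by rw [Set.ncard_singleton]; omega)
    · have hsub : {u | glue3R H n RH (Sum.inr (h, Sum.inr (Sum.inl i))) u ∧ glue3Rk H n rH M u <
          glue3Rk H n rH M (Sum.inr (h, Sum.inr (Sum.inl i)))} ⊆
          {Sum.inl (H.src h), Sum.inl (H.tgt h), Sum.inr (h, Sum.inl ())} := by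
        rintro (a | ⟨h', _ | i' | y'⟩) ⟨k1, k2⟩
        · rcases k1 with k1 | k1
          · left; rw [k1]
          · right; left; rw [k1]
        · right; right
          rw [show h = h' from k1]
          rfl
        · exact k1.elim
        · simp only [glue3Rk] at k2; omega
      refine (Set.ncard_le_ncard hsub (Set.toFinite _)).trans ?_
      exact (Set.ncard_insert_le _ _).trans ((Nat.add_le_add_right (Set.ncard_insert_le _ _) 1).trans
        (by rw [Set.ncard_singleton]; omega))
    · have hsub : {u | glue3R H n RH (Sum.inr (h, Sum.inr (Sum.inr y))) u ∧ glue3Rk H n rH M u <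
          glue3Rk H n rH M (Sum.inr (h, Sum.inr (Sum.inr y)))} ⊆
          {Sum.inl (H.tgt h), Sum.inr (h, Sum.inl ()), Sum.inr (h, Sum.inr (Sum.inl y.1))} := by
        rintro (a | ⟨h', _ | i' | y'⟩) ⟨k1, k2⟩
        · left; rw [show a = H.tgt h from k1]
        · right; left
          rw [show h = h' from k1]
        · obtain ⟨rfl, rfl⟩ := k1
          right; right; rfl
        · exact k1.elim
      refine (Set.ncard_le_ncard hsub (Set.toFinite _)).trans ?_
      exact (Set.ncard_insert_le _ _).trans ((Nat.add_le_add_right (Set.ncard_insert_le _ _) 1).trans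
        (by rw [Set.ncard_singleton]; omega))
  root := by
    rintro (c | ⟨h, _ | i | y⟩) hc
    · obtain ⟨u, h1, h2⟩ := hH.root c (fun h => hc (by rw [h]))
      exact ⟨Sum.inl u, h1, h2⟩
    all_goals refine ⟨Sum.inl (H.tgt h), ?_, ?_⟩
    all_goals first
      | (simp only [glue3Rk]; have := hM (H.tgt h); omega)
      | simp [glue3R]

theorem glue3_conn {H : WG} {n : ℕ} (i0 : Fin n)
    (hH : ∀ a b, Relation.EqvGen (fun a b => ∃ e, H.src e = a ∧ H.tgt e = b) a b) :
    ∀ a b, Relation.EqvGen (fun a b => ∃ e, (glue3 H n).src e = a ∧ (glue3 H n).tgt e = b)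
      a b := by
  set S : (glue3 H n).V → (glue3 H n).V → Prop :=
    fun a b => ∃ e, (glue3 H n).src e = a ∧ (glue3 H n).tgt e = b with hS
  have h1 : ∀ a b : H.V, Relation.EqvGen S (Sum.inl a) (Sum.inl b) := by
    intro a b
    induction hH a b with
    | rel x y hxy =>
      obtain ⟨h, rfl, rfl⟩ := hxy
      refine .trans _ (Sum.inr (h, Sum.inl ())) _ (.rel _ _ ⟨(h, .inl ()), rfl, rfl⟩) ?_
      refine .trans _ (Sum.inr (h, Sum.inr (Sum.inr (i0, i0)))) _
        (.rel _ _ ⟨(h, .inr (.inr (.inl (i0, i0)))), rfl, rfl⟩) ?_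
      exact .rel _ _ ⟨(h, .inr (.inr (.inr (.inr (i0, i0))))), rfl, rfl⟩
    | refl x => exact .refl _
    | symm x y _ ih => exact .symm _ _ ih
    | trans x y z _ _ ih1 ih2 => exact .trans _ _ _ ih1 ih2
  have h2 : ∀ z : (glue3 H n).V, ∃ a : H.V, Relation.EqvGen S z (Sum.inl a) := by
    rintro (a | ⟨h, _ | i | y⟩)
    · exact ⟨a, .refl _⟩
    · exact ⟨H.src h, .symm _ _ (.rel _ _ ⟨(h, .inl ()), rfl, rfl⟩)⟩
    · exact ⟨H.src h, .symm _ _ (.rel _ _ ⟨(h, .inr (.inl i)), rfl, rfl⟩)⟩
    · exact ⟨H.tgt h, .rel _ _ ⟨(h, .inr (.inr (.inr (.inr y)))), rfl, rfl⟩⟩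
  intro x y
  obtain ⟨a, ha⟩ := h2 x
  obtain ⟨b, hb⟩ := h2 y
  exact .trans _ _ _ ha (.trans _ _ _ (h1 a b) (.symm _ _ hb))

theorem glue3_wit {H : WG} {n : ℕ} (hlH : ∀ e, 0 < H.len e)
    (hwH : ∀ i, ∃ g : H.V → ℝ, (∀ e, |g (H.src e) - g (H.tgt e)| ≤ H.len e) ∧
      H.D i ≤ g (H.p i) - g (H.q i)) :
    ∀ i, ∃ g : (glue3 H n).V → ℝ,
      (∀ e, |g ((glue3 H n).src e) - g ((glue3 H n).tgt e)| ≤ (glue3 H n).len e) ∧
      (glue3 H n).D i ≤ g ((glue3 H n).p i) - g ((glue3 H n).q i) := by
  classical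
  rintro (i | ⟨h, ⟨⟨i, j⟩, hij⟩ | ⟨i, ⟨a, b⟩, hab⟩⟩)
  · obtain ⟨g, hg1, hg2⟩ := hwH i
    refine ⟨fun z => match z with
      | .inl a => g a
      | .inr (h, .inl _) => (g (H.src h) + g (H.tgt h)) / 2
      | .inr (h, .inr (.inl _)) => (g (H.src h) + g (H.tgt h)) / 2
      | .inr (h, .inr (.inr _)) => (g (H.src h) + 3 * g (H.tgt h)) / 4, ?_, hg2⟩
    rintro ⟨h, _ | i | y | y | y⟩
    all_goals have h0 := abs_le.mp (hg1 h)
    all_goals refine abs_le.mpr ?_
    all_goals simp only [glue3]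
    all_goals constructor <;> linarith [h0.1, h0.2]
  · have hl := hlH h
    -- the function of the index: `1` at `i`, `-1` at `j`
    set c : Fin n → ℝ := fun k => if k = i then 1 else if k = j then -1 else 0 with hc
    have hc1 : ∀ k, |c k| ≤ 1 := by
      intro k
      simp only [hc]
      split_ifs <;> norm_num
    refine ⟨fun z => match z with
      | .inl _ => 0
      | .inr (_, .inl _) => 0
      | .inr (h', .inr (.inl k)) => if h' = h then H.len h / 2 * c k else 0
      | .inr (h', .inr (.inr y)) => if h' = h then H.len h / 4 * c y.1 else 0, ?_, ?_⟩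
    · rintro ⟨h', _ | k | y | y | y⟩
      all_goals simp only [glue3]
      all_goals have hl' := hlH h'
      · rw [sub_zero, abs_zero]; linarith
      all_goals by_cases hh : h' = h
      all_goals first
        | (subst hh
           simp only [if_true]
           first
             | (have := abs_le.mp (hc1 k)
                refine abs_le.mpr ⟨?_, ?_⟩ <;> nlinarith [this.1, this.2])
             | (have := abs_le.mp (hc1 y.1)
                refine abs_le.mpr ⟨?_, ?_⟩ <;> nlinarith [this.1, this.2]))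
        | (simp only [if_neg hh, sub_zero, abs_zero]
           linarith)
    · have hji : j ≠ i := fun h => hij h.symm
      simp only [glue3, if_true, hc]
      rw [if_neg hji]
      linarith
  · have hl := hlH h
    set c : Fin n × Fin n → ℝ := fun y => if y = (i, a) then 1 else if y = (i, b) then -1 else 0
      with hc
    have hc1 : ∀ k, |c k| ≤ 1 := by
      intro k
      simp only [hc]
      split_ifs <;> norm_num
    refine ⟨fun z => match z with
      | .inl _ => 0
      | .inr (_, .inl _) => 0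
      | .inr (_, .inr (.inl _)) => 0
      | .inr (h', .inr (.inr y)) => if h' = h then H.len h / 4 * c y else 0, ?_, ?_⟩
    · rintro ⟨h', _ | k | y | y | y⟩
      all_goals simp only [glue3]
      all_goals have hl' := hlH h'
      · rw [sub_zero, abs_zero]; linarith
      · rw [sub_zero, abs_zero]; linarith
      all_goals by_cases hh : h' = h
      all_goals first
        | (subst hh
           simp only [if_true]
           have := abs_le.mp (hc1 y)
           refine abs_le.mpr ⟨?_, ?_⟩ <;> nlinarith [this.1, this.2])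
        | (simp only [if_neg hh, sub_zero, abs_zero]
           linarith)
    · have hba : (i, b) ≠ (i, a) := fun h => hab (Prod.mk.inj h).2.symm
      simp only [glue3, if_true, hc]
      rw [if_neg hba]
      linarith

theorem glue3_ok {H : WG} {w : ℕ} {n : ℕ} (i0 : Fin n) (hH : Ok H w) (h3 : 3 ≤ w) :
    Ok (glue3 H n) w := by
  have := hH.finV
  have := hH.finE
  have := hH.finP
  refine ⟨?_, ?_, ?_, ?_, ?_, glue3_wit hH.pos hH.wit, ?_, glue3_conn i0 hH.conn⟩
  · show Finite (H.V ⊕ (H.E × In3 n))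
    infer_instance
  · show Finite (H.E × (Unit ⊕ (Fin n ⊕ ((Fin n × Fin n) ⊕ ((Fin n × Fin n) ⊕ (Fin n × Fin n))))))
    infer_instance
  · show Finite (H.P ⊕ (H.E × (Pr n ⊕ (Fin n × Pr n))))
    infer_instance
  · obtain ⟨h⟩ := hH.neE
    exact ⟨(h, .inl ())⟩
  · rintro ⟨h, _ | i | y | y | y⟩
    all_goals have := hH.pos h
    all_goals simp only [glue3]
    all_goals linarith
  · obtain ⟨RH, rH, r, hH'⟩ := hH.elim
    obtain ⟨M, hM⟩ := (Set.finite_range rH).bddAbove
    exact ⟨_, _, _, glue3_el n hH' (M := M + 1) (fun a => Nat.lt_succ_of_le (hM ⟨a, rfl⟩))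
      hH.finV le_rfl h3⟩

end Vale.Agent.P235
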