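import Vale.Agent.P235.Glue

/-! `glue` preserves the standing assumptions. -/

namespace Vale.Agent.P235

theorem glue_conn {H K : WG} (A : ℝ) (hE : Nonempty K.E)
    (hH : ∀ a b, Relation.EqvGen (fun a b => ∃ e, H.src e = a ∧ H.tgt e = b) a b) :
    ∀ a b, Relation.EqvGen (fun a b => ∃ e, (glue H K A).src e = a ∧ (glue H K A).tgt e = b)
      a b := by
  set S : (glue H K A).V → (glue H K A).V → Prop :=
    fun a b => ∃ e, (glue H K A).src e = a ∧ (glue H K A).tgt e = b with hS
  obtain ⟨e0⟩ := hE
  have h1 : ∀ a b : H.V, Relation.EqvGen S (Sum.inl a) (Sum.inl b) := by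
    intro a b
    induction hH a b with
    | rel x y hxy =>
      obtain ⟨h, rfl, rfl⟩ := hxy
      refine .trans _ (Sum.inr (h, Sum.inl (K.src e0))) _ (.rel _ _ ⟨(h, .inl (K.src e0)), rfl, rfl⟩) ?_
      refine .trans _ (Sum.inr (h, Sum.inr (e0, false))) _
        (.rel _ _ ⟨(h, .inr (.inl (e0, false, false))), rfl, rfl⟩) ?_
      exact .rel _ _ ⟨(h, .inr (.inr (e0, false))), rfl, rfl⟩
    | refl x => exact .refl _
    | symm x y _ ih => exact .symm _ _ ih
    | trans x y z _ _ ih1 ih2 => exact .trans _ _ _ ih1 ih2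
  have h2 : ∀ z : (glue H K A).V, ∃ a : H.V, Relation.EqvGen S z (Sum.inl a) := by
    rintro (a | ⟨h, v | ⟨e, i⟩⟩)
    · exact ⟨a, .refl _⟩
    · exact ⟨H.src h, .symm _ _ (.rel _ _ ⟨(h, .inl v), rfl, rfl⟩)⟩
    · exact ⟨H.tgt h, .rel _ _ ⟨(h, .inr (.inr (e, i))), rfl, rfl⟩⟩
  intro x y
  obtain ⟨a, ha⟩ := h2 x
  obtain ⟨b, hb⟩ := h2 y
  exact .trans _ _ _ ha (.trans _ _ _ (h1 a b) (.symm _ _ hb))

theorem abs_mul_le' {l x m : ℝ} (hl : 0 ≤ l) (h : |x| ≤ m) : |l * x| ≤ l * m := by
  rw [abs_mul, abs_of_nonneg hl]; exact mul_le_mul_of_nonneg_left h hl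

theorem glue_wit {H K : WG} {A : ℝ} (hA : 0 < A) (hlH : ∀ e, 0 < H.len e) (hlK : ∀ e, 0 < K.len e)
    (hlA : ∀ e, K.len e ≤ A)
    (hwH : ∀ i, ∃ g : H.V → ℝ, (∀ e, |g (H.src e) - g (H.tgt e)| ≤ H.len e) ∧
      H.D i ≤ g (H.p i) - g (H.q i))
    (hwK : ∀ i, ∃ g : K.V → ℝ, (∀ e, |g (K.src e) - g (K.tgt e)| ≤ K.len e) ∧
      K.D i ≤ g (K.p i) - g (K.q i) ∧ ∀ v, 2 * |g v| ≤ A) :
    ∀ i, ∃ g : (glue H K A).V → ℝ,
      (∀ e, |g ((glue H K A).src e) - g ((glue H K A).tgt e)| ≤ (glue H K A).len e) ∧
      (glue H K A).D i ≤ g ((glue H K A).p i) - g ((glue H K A).q i) := by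
  classical
  have hm1 : ∀ e, 0 < K.len e / (4 * A) := fun e => div_pos (hlK e) (by linarith)
  have hm2 : ∀ e, K.len e / (4 * A) ≤ 1 / 4 := fun e => by
    rw [div_le_iff₀ (by linarith)]; have := hlA e; linarith
  rintro (i | ⟨h, i | e⟩)
  · obtain ⟨g, hg1, hg2⟩ := hwH i
    refine ⟨fun z => match z with
      | .inl a => g a
      | .inr (h, .inl _) => g (H.src h) + 1 / 2 * (g (H.tgt h) - g (H.src h))
      | .inr (h, .inr (e, _)) => g (H.src h) +
          (1 / 2 + K.len e / (4 * A)) * (g (H.tgt h) - g (H.src h)), ?_, hg2⟩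
    rintro ⟨h, v | ⟨e, i, _ | _⟩ | ⟨e, i⟩⟩
    all_goals have h0 := abs_le.mp (hg1 h)
    all_goals refine abs_le.mpr ?_
    all_goals simp only [glue]
    · constructor <;> linarith [h0.1, h0.2]
    all_goals have h1 := hm1 e
    all_goals have h2 := hm2 e
    · constructor <;> nlinarith [h0.1, h0.2]
    · constructor <;> nlinarith [h0.1, h0.2]
    · constructor <;> nlinarith [h0.1, h0.2]
  · obtain ⟨g, hg1, hg2, hg3⟩ := hwK i
    have hl := hlH h
    refine ⟨fun z => match z with
      | .inl _ => 0
      | .inr (h', .inl v) => if h' = h then H.len h * (g v / (2 * A)) else 0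
      | .inr (h', .inr (e, _)) => if h' = h then
          H.len h * ((g (K.src e) + g (K.tgt e)) / (4 * A)) else 0, ?_, ?_⟩
    · have ha : ∀ v, |g v / (2 * A)| ≤ 1 / 4 := fun v => by
        rw [abs_div, abs_of_pos (by linarith : (0:ℝ) < 2 * A), div_le_iff₀ (by linarith)]
        have := hg3 v; linarith
      have hb : ∀ e, (g (K.src e) + g (K.tgt e)) / (4 * A) =
          (g (K.src e) / (2 * A) + g (K.tgt e) / (2 * A)) / 2 := fun e => by
        field_simp; ring
      have hc : ∀ e, |g (K.src e) / (2 * A) - g (K.tgt e) / (2 * A)| ≤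
          2 * (K.len e / (4 * A)) := fun e => by
        rw [← sub_div, abs_div, abs_of_pos (by linarith : (0:ℝ) < 2 * A),
          div_le_iff₀ (by linarith)]
        have := hg1 e
        have h5 : 2 * (K.len e / (4 * A)) * (2 * A) = K.len e := by field_simp; ring
        rw [h5]; exact this
      rintro ⟨h', v | ⟨e, i, _ | _⟩ | ⟨e, i⟩⟩
      · simp only [glue]
        by_cases hh : h' = h
        · subst hh
          rw [if_pos rfl, zero_sub, abs_neg, div_eq_mul_inv (H.len h') 2]
          exact abs_mul_le' hl.le ((ha v).trans (by norm_num))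
        · rw [if_neg hh, sub_zero, abs_zero]; have := hlH h'; linarith
      · simp only [glue]
        by_cases hh : h' = h
        · subst hh
          rw [if_pos rfl, if_pos rfl, ← mul_sub]
          refine abs_mul_le' hl.le ?_
          rw [hb]
          have := abs_le.mp (hc e)
          refine abs_le.mpr ⟨?_, ?_⟩ <;> linarith [this.1, this.2]
        · rw [if_neg hh, if_neg hh, sub_zero, abs_zero]
          exact mul_nonneg (hlH h').le (hm1 e).le
      · simp only [glue]
        by_cases hh : h' = h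
        · subst hh
          rw [if_pos rfl, if_pos rfl, ← mul_sub]
          refine abs_mul_le' hl.le ?_
          rw [hb]
          have := abs_le.mp (hc e)
          refine abs_le.mpr ⟨?_, ?_⟩ <;> linarith [this.1, this.2]
        · rw [if_neg hh, if_neg hh, sub_zero, abs_zero]
          exact mul_nonneg (hlH h').le (hm1 e).le
      · simp only [glue]
        by_cases hh : h' = h
        · subst hh
          rw [if_pos rfl, sub_zero]
          refine abs_mul_le' hl.le ?_
          rw [hb]
          have h5 := abs_le.mp (ha (K.src e))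
          have h6 := abs_le.mp (ha (K.tgt e))
          have h7 := hm2 e
          refine abs_le.mpr ⟨?_, ?_⟩ <;> linarith [h5.1, h5.2, h6.1, h6.2]
        · rw [if_neg hh, sub_zero, abs_zero]
          have h7 := hm2 e
          exact mul_nonneg (hlH h').le (by linarith)
    · simp only [glue, if_true]
      rw [← mul_sub, ← sub_div]
      exact mul_le_mul_of_nonneg_left (div_le_div_of_nonneg_right hg2 (by linarith)) hl.le
  · have hl := hlH h
    have hm1e := hm1 e
    have hm2e := hm2 e
    refine ⟨fun z => match z with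
      | .inl _ => 0
      | .inr (_, .inl _) => 0
      | .inr (h', .inr (e', false)) => if h' = h ∧ e' = e then H.len h * (K.len e / (4 * A)) else 0
      | .inr (h', .inr (e', true)) => if h' = h ∧ e' = e then -(H.len h * (K.len e / (4 * A)))
          else 0, ?_, ?_⟩
    · have h8 : 0 ≤ H.len h * (K.len e / (4 * A)) := mul_nonneg hl.le hm1e.le
      rintro ⟨h', v | ⟨e', _ | _, _ | _⟩ | ⟨e', _ | _⟩⟩
      · simp only [glue, sub_zero, abs_zero]; have := hlH h'; linarith
      all_goals simp only [glue]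
      all_goals by_cases hh : h' = h ∧ e' = e
      all_goals first
        | (obtain ⟨rfl, rfl⟩ := hh
           simp only [and_self, if_true, sub_zero, zero_sub, abs_neg, abs_of_nonneg h8]
           first
             | exact le_rfl
             | exact mul_le_mul_of_nonneg_left (by linarith) hl.le)
        | (simp only [if_neg hh, sub_zero, abs_zero]
           have h7 := hm2 e'
           have h9 := hm1 e'
           exact mul_nonneg (hlH h').le (by linarith))
    · simp only [glue, and_self, if_true]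
      linarith

end Vale.Agent.P235
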