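import Vale.Agent.P235.SixPt

/-! The inequality for the midpoints of a pair. -/

namespace Vale.Agent.P235

open MeasureTheory

theorem unit_mid (n : ℕ) (z : Fin n → ℝ) {a b : ℝ} (hab : a ≤ b) (hz : ∀ i, a ≤ z i ∧ z i ≤ b) :
    ∑ i, ∑ j, |z i - z j| ≤ (n:ℝ)^2/2 * (b - a) := by
  rcases hab.eq_or_lt with rfl | hlt
  · have : ∀ i, z i = a := fun i => le_antisymm (hz i).2 (hz i).1
    simp [this]
  · have h1 : ∀ i j, |z i - z j| * (b - a) ≤ (z i - a) * (b - z j) + (z j - a) * (b - z i) := by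
      intro i j
      have := hz i
      have := hz j
      rcases abs_cases (z i - z j) with ⟨e, _⟩ | ⟨e, _⟩ <;> rw [e] <;> nlinarith
    have h2 : (∑ i, ∑ j, |z i - z j|) * (b - a) ≤
        ∑ i, ∑ j, ((z i - a) * (b - z j) + (z j - a) * (b - z i)) := by
      rw [Finset.sum_mul]
      refine Finset.sum_le_sum fun i _ => ?_
      rw [Finset.sum_mul]
      exact Finset.sum_le_sum fun j _ => h1 i j
    have h3 : ∑ i, ∑ j, ((z i - a) * (b - z j) + (z j - a) * (b - z i)) =
        2 * ((∑ i, (z i - a)) * ∑ j, (b - z j)) := by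
      simp only [Finset.sum_add_distrib]
      rw [Finset.sum_comm (f := fun i j => (z j - a) * (b - z i)), two_mul, Finset.sum_mul_sum]
    have h4 : (∑ i, (z i - a)) + ∑ j, (b - z j) = n * (b - a) := by
      rw [← Finset.sum_add_distrib]
      simp
      ring
    have h5 : (∑ i, ∑ j, |z i - z j|) * (b - a) ≤ (n:ℝ)^2/2 * (b - a) * (b - a) := by
      refine h2.trans ?_
      rw [h3]
      have h6 : (n:ℝ)^2/2 * (b - a) * (b - a) = (n * (b - a)) ^ 2 / 2 := by ring
      rw [h6, ← h4]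
      nlinarith [sq_nonneg ((∑ i, (z i - a)) - ∑ j, (b - z j))]
    exact le_of_mul_le_mul_right h5 (by linarith)

theorem real_mid_le (n : ℕ) (y : Fin n → ℝ) {s t : ℝ} (hst : s ≤ t) :
    ∑ i, ∑ j, |y i - y j| ≤ (n:ℝ)^2/2 * |s - t| + n * ∑ i, (|s - y i| + |y i - t| - |s - t|) := by
  set z : Fin n → ℝ := fun i => max s (min (y i) t) with hz
  have h1 : ∀ i, |y i - z i| = (|s - y i| + |y i - t| - |s - t|) / 2 := by
    intro i
    simp only [hz]
    rw [abs_of_nonpos (by linarith : s - t ≤ 0)]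
    rcases le_total (y i) t with h | h
    · rw [min_eq_left h]
      rcases le_total s (y i) with h' | h'
      · rw [max_eq_right h', abs_of_nonpos (by linarith : s - y i ≤ 0),
          abs_of_nonpos (by linarith : y i - t ≤ 0)]
        simp
      · rw [max_eq_left h', abs_of_nonneg (by linarith : 0 ≤ s - y i),
          abs_of_nonpos (by linarith : y i - t ≤ 0), abs_of_nonpos (by linarith : y i - s ≤ 0)]
        ring
    · rw [min_eq_right h, max_eq_right hst, abs_of_nonpos (by linarith : s - y i ≤ 0),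
        abs_of_nonneg (by linarith : 0 ≤ y i - t)]
      ring
  have h2 := unit_mid n z hst (fun i => ⟨le_max_left _ _, max_le hst (min_le_right _ _)⟩)
  have h3 : ∀ i j, |y i - y j| ≤ |z i - z j| + (|y i - z i| + |y j - z j|) := by
    intro i j
    have : y i - y j = (z i - z j) + ((y i - z i) - (y j - z j)) := by ring
    rw [this]
    refine (abs_add_le _ _).trans ?_
    have := abs_sub (y i - z i) (y j - z j)
    linarith
  have h4 : ∑ i : Fin n, ∑ j : Fin n, (|y i - z i| + |y j - z j|) = 2 * (n * ∑ i, |y i - z i|) := by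
    simp only [Finset.sum_add_distrib, Finset.sum_const, Finset.card_univ, Fintype.card_fin,
      nsmul_eq_mul]
    rw [← Finset.mul_sum]
    ring
  have h5 : 2 * ((n:ℝ) * ∑ i, |y i - z i|) = n * ∑ i, (|s - y i| + |y i - t| - |s - t|) := by
    rw [Finset.sum_congr rfl fun i _ => h1 i, ← Finset.sum_div]
    ring
  calc ∑ i, ∑ j, |y i - y j| ≤ ∑ i, ∑ j, (|z i - z j| + (|y i - z i| + |y j - z j|)) :=
        Finset.sum_le_sum fun i _ => Finset.sum_le_sum fun j _ => h3 i j
    _ = ∑ i, ∑ j, |z i - z j| + ∑ i, ∑ j, (|y i - z i| + |y j - z j|) := by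
        simp only [Finset.sum_add_distrib]
    _ ≤ _ := by
        rw [h4, h5, abs_sub_comm s t, abs_of_nonneg (by linarith : 0 ≤ t - s)]
        rw [abs_sub_comm s t, abs_of_nonneg (by linarith : 0 ≤ t - s)] at *
        linarith

theorem real_mid (n : ℕ) (y : Fin n → ℝ) (s t : ℝ) :
    ∑ i, ∑ j, |y i - y j| ≤ (n:ℝ)^2/2 * |s - t| + n * ∑ i, (|s - y i| + |y i - t| - |s - t|) := by
  rcases le_total s t with h | h
  · exact real_mid_le n y h
  · have := real_mid_le n y h
    rw [abs_sub_comm t s] at this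
    refine this.trans (le_of_eq ?_)
    congr 2
    refine Finset.sum_congr rfl fun i _ => ?_
    rw [abs_sub_comm t (y i), abs_sub_comm (y i) s]
    ring

theorem mid_integral {V Ω : Type} [MeasurableSpace Ω] (μ : Measure Ω) (f : V → Ω → ℝ)
    (hf : ∀ x, Integrable (f x) μ) : Mid (fun x y => ∫ ω, |f x ω - f y ω| ∂μ) := by
  intro n y s t
  have hi : ∀ x y, Integrable (fun ω => |f x ω - f y ω|) μ := fun x y => ((hf x).sub (hf y)).abs
  have h1 : ∑ i, ∑ j, ∫ ω, |f (y i) ω - f (y j) ω| ∂μ =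
      ∫ ω, ∑ i, ∑ j, |f (y i) ω - f (y j) ω| ∂μ := by
    rw [integral_finsetSum _ fun i _ => integrable_finsetSum _ fun j _ => hi _ _]
    refine Finset.sum_congr rfl fun i _ => ?_
    rw [integral_finsetSum _ fun j _ => hi _ _]
  have hi2 : ∀ i, Integrable (fun ω => |f s ω - f (y i) ω| + |f (y i) ω - f t ω| - |f s ω - f t ω|) μ :=
    fun i => ((hi _ _).add (hi _ _)).sub (hi _ _)
  have h2 : (n:ℝ)^2/2 * (∫ ω, |f s ω - f t ω| ∂μ) + n * ∑ i, ((∫ ω, |f s ω - f (y i) ω| ∂μ) +
      (∫ ω, |f (y i) ω - f t ω| ∂μ) - ∫ ω, |f s ω - f t ω| ∂μ) =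
      ∫ ω, ((n:ℝ)^2/2 * |f s ω - f t ω| + n * ∑ i, (|f s ω - f (y i) ω| + |f (y i) ω - f t ω| -
        |f s ω - f t ω|)) ∂μ := by
    rw [integral_add ((hi _ _).const_mul _) ((integrable_finsetSum _ fun i _ => hi2 i).const_mul _),
      integral_const_mul, integral_const_mul, integral_finsetSum _ fun i _ => hi2 i]
    congr 2
    refine Finset.sum_congr rfl fun i _ => ?_
    have hi3 : Integrable (fun ω => |f s ω - f (y i) ω| + |f (y i) ω - f t ω|) μ :=
      (hi s (y i)).add (hi (y i) t)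
    rw [integral_sub hi3 (hi s t), integral_add (hi s (y i)) (hi (y i) t)]
  show ∑ i, ∑ j, ∫ ω, |f (y i) ω - f (y j) ω| ∂μ ≤ (n:ℝ)^2/2 * (∫ ω, |f s ω - f t ω| ∂μ) +
    n * ∑ i, ((∫ ω, |f s ω - f (y i) ω| ∂μ) + (∫ ω, |f (y i) ω - f t ω| ∂μ) -
      ∫ ω, |f s ω - f t ω| ∂μ)
  rw [h1, h2]
  refine integral_mono (integrable_finsetSum _ fun i _ => integrable_finsetSum _ fun j _ => hi _ _)
    (((hi _ _).const_mul _).add ((integrable_finsetSum _ fun i _ => hi2 i).const_mul _)) ?_
  intro ω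
  exact real_mid n (fun i => f (y i) ω) (f s ω) (f t ω)

end Vale.Agent.P235
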