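import Vale.Agent.P235.Defs

/-! The six-point inequality satisfied by all `L₁` metrics. -/

namespace Vale.Agent.P235

open MeasureTheory

/-- the six-point inequality -/
def Six {V : Type} (ρ : V → V → ℝ) : Prop :=
  ∀ s t u v a b, ρ a b + ρ u v + 2 * ρ s t ≤
    (ρ u a + ρ u b + ρ v a + ρ v b) + (ρ s u + ρ s v) + (ρ a t + ρ b t)

/-- the inequality for the midpoints of a pair -/
def Mid {V : Type} (ρ : V → V → ℝ) : Prop :=
  ∀ (n : ℕ) (y : Fin n → V) (s t : V), ∑ i, ∑ j, ρ (y i) (y j) ≤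
    (n:ℝ)^2/2 * ρ s t + n * ∑ i, (ρ s (y i) + ρ (y i) t - ρ s t)

/-- the excess of the two paths `s r y t` and `s z y t`, for a semimetric -/
def exd {V : Type} (ρ : V → V → ℝ) (s t r z y : V) : ℝ :=
  ρ s r + ρ r y + ρ s z + ρ z y + 2 * ρ y t - 2 * ρ s t

/-- the inequality for the treewidth three gadget -/
def TriIneq {V : Type} (ρ : V → V → ℝ) : Prop :=
  ∀ (n : ℕ) (s t r : V) (z : Fin n → V) (y : Fin n → Fin n → V),
    n * (∑ i, ∑ j, ρ (z i) (z j)) + (9/4) * ∑ i, ∑ a, ∑ b, ρ (y i a) (y i b) ≤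
      (n:ℝ)^3 / 8 * ρ s t + n * ∑ i, ∑ a, ((ρ r (y i a) + ρ (y i a) t) +
        (ρ (z i) (y i a) + ρ (y i a) t) + (3/2) * (ρ s r + ρ r (y i a) - ρ s t)) +
        8 * (n:ℝ)^3 * ∑ i, ∑ a, exd ρ s t r (z i) (y i a)

/-- the inequalities for `L₁` metrics used in the proof -/
structure SP {V : Type} (ρ : V → V → ℝ) : Prop where
  six : Six ρ
  mid : Mid ρ
  tri : TriIneq ρ

theorem real_six (s t u v a b : ℝ) : |a - b| + |u - v| + 2 * |s - t| ≤
    (|u - a| + |u - b| + |v - a| + |v - b|) + (|s - u| + |s - v|) + (|a - t| + |b - t|) := by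
  have h1 : |a - b| + |u - v| + |u + v - a - b| ≤ |u - a| + |u - b| + |v - a| + |v - b| := by
    have a1 := le_abs_self (u - a)
    have a2 := neg_le_abs (u - a)
    have b1 := le_abs_self (u - b)
    have b2 := neg_le_abs (u - b)
    have c1 := le_abs_self (v - a)
    have c2 := neg_le_abs (v - a)
    have d1 := le_abs_self (v - b)
    have d2 := neg_le_abs (v - b)
    rcases abs_cases (a - b) with ⟨e, _⟩ | ⟨e, _⟩ <;> rcases abs_cases (u - v) with ⟨f, _⟩ | ⟨f, _⟩ <;>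
      rcases abs_cases (u + v - a - b) with ⟨g, _⟩ | ⟨g, _⟩ <;> rw [e, f, g] <;> linarith
  have h2 : 2 * |s - t| ≤ (|s - u| + |s - v|) + |u + v - a - b| + (|a - t| + |b - t|) := by
    have a1 := le_abs_self (s - u)
    have a2 := neg_le_abs (s - u)
    have b1 := le_abs_self (s - v)
    have b2 := neg_le_abs (s - v)
    have c1 := le_abs_self (a - t)
    have c2 := neg_le_abs (a - t)
    have d1 := le_abs_self (b - t)
    have d2 := neg_le_abs (b - t)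
    have e1 := le_abs_self (u + v - a - b)
    have e2 := neg_le_abs (u + v - a - b)
    rcases abs_cases (s - t) with ⟨e, _⟩ | ⟨e, _⟩ <;> rw [e] <;> linarith
  linarith

theorem six_integral {V Ω : Type} [MeasurableSpace Ω] (μ : Measure Ω) (f : V → Ω → ℝ)
    (hf : ∀ x, Integrable (f x) μ) : Six (fun x y => ∫ ω, |f x ω - f y ω| ∂μ) := by
  intro s t u v a b
  have hi : ∀ x y, Integrable (fun ω => |f x ω - f y ω|) μ := fun x y => ((hf x).sub (hf y)).abs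
  have A2 : ∀ {g h : Ω → ℝ}, Integrable g μ → Integrable h μ → Integrable (fun ω => g ω + h ω) μ :=
    fun hg hh => hg.add hh
  have h1 : (∫ ω, |f a ω - f b ω| ∂μ) + (∫ ω, |f u ω - f v ω| ∂μ) + 2 * (∫ ω, |f s ω - f t ω| ∂μ)
      = ∫ ω, (|f a ω - f b ω| + |f u ω - f v ω| + 2 * |f s ω - f t ω|) ∂μ := by
    rw [integral_add (A2 (hi a b) (hi u v)) ((hi s t).const_mul 2), integral_add (hi a b) (hi u v),
      integral_const_mul]
  have h2 : ((∫ ω, |f u ω - f a ω| ∂μ) + (∫ ω, |f u ω - f b ω| ∂μ) + (∫ ω, |f v ω - f a ω| ∂μ)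
        + (∫ ω, |f v ω - f b ω| ∂μ)) + ((∫ ω, |f s ω - f u ω| ∂μ) + (∫ ω, |f s ω - f v ω| ∂μ))
        + ((∫ ω, |f a ω - f t ω| ∂μ) + (∫ ω, |f b ω - f t ω| ∂μ))
      = ∫ ω, ((|f u ω - f a ω| + |f u ω - f b ω| + |f v ω - f a ω| + |f v ω - f b ω|)
        + (|f s ω - f u ω| + |f s ω - f v ω|) + (|f a ω - f t ω| + |f b ω - f t ω|)) ∂μ := by
    rw [integral_add (A2 (A2 (A2 (A2 (hi u a) (hi u b)) (hi v a)) (hi v b))
        (A2 (hi s u) (hi s v))) (A2 (hi a t) (hi b t)),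
      integral_add (A2 (A2 (A2 (hi u a) (hi u b)) (hi v a)) (hi v b)) (A2 (hi s u) (hi s v)),
      integral_add (A2 (A2 (hi u a) (hi u b)) (hi v a)) (hi v b),
      integral_add (A2 (hi u a) (hi u b)) (hi v a), integral_add (hi u a) (hi u b),
      integral_add (hi s u) (hi s v), integral_add (hi a t) (hi b t)]
  show (∫ ω, |f a ω - f b ω| ∂μ) + (∫ ω, |f u ω - f v ω| ∂μ) + 2 * (∫ ω, |f s ω - f t ω| ∂μ) ≤
    ((∫ ω, |f u ω - f a ω| ∂μ) + (∫ ω, |f u ω - f b ω| ∂μ) + (∫ ω, |f v ω - f a ω| ∂μ)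
        + (∫ ω, |f v ω - f b ω| ∂μ)) + ((∫ ω, |f s ω - f u ω| ∂μ) + (∫ ω, |f s ω - f v ω| ∂μ))
        + ((∫ ω, |f a ω - f t ω| ∂μ) + (∫ ω, |f b ω - f t ω| ∂μ))
  rw [h1, h2]
  refine integral_mono (A2 (A2 (hi a b) (hi u v)) ((hi s t).const_mul 2))
    (A2 (A2 (A2 (A2 (A2 (hi u a) (hi u b)) (hi v a)) (hi v b))
        (A2 (hi s u) (hi s v))) (A2 (hi a t) (hi b t))) ?_
  intro ω
  exact real_six _ _ _ _ _ _

theorem SP.comap {V W : Type} {ρ : V → V → ℝ} (h : SP ρ) (f : W → V) :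
    SP (fun x y => ρ (f x) (f y)) :=
  ⟨fun _ _ _ _ _ _ => h.six _ _ _ _ _ _, fun n y s t => h.mid n (fun i => f (y i)) (f s) (f t),
    fun n s t r z y => h.tri n (f s) (f t) (f r) (fun i => f (z i)) (fun i a => f (y i a))⟩

theorem SP.smul {V : Type} {ρ : V → V → ℝ} (h : SP ρ) {c : ℝ} (hc : 0 ≤ c) :
    SP (fun x y => c * ρ x y) := by
  refine ⟨?_, ?_, ?_⟩
  · intro s t u v a b
    have := mul_le_mul_of_nonneg_left (h.six s t u v a b) hc
    show c * ρ a b + c * ρ u v + 2 * (c * ρ s t) ≤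
      (c * ρ u a + c * ρ u b + c * ρ v a + c * ρ v b) + (c * ρ s u + c * ρ s v)
        + (c * ρ a t + c * ρ b t)
    linarith
  · intro n y s t
    have := mul_le_mul_of_nonneg_left (h.mid n y s t) hc
    have h1 : ∑ i, ∑ j, c * ρ (y i) (y j) = c * ∑ i, ∑ j, ρ (y i) (y j) := by
      simp only [Finset.mul_sum]
    have h2 : ∑ i, (c * ρ s (y i) + c * ρ (y i) t - c * ρ s t) =
        c * ∑ i, (ρ s (y i) + ρ (y i) t - ρ s t) := by
      rw [Finset.mul_sum]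
      exact Finset.sum_congr rfl fun i _ => by ring
    show ∑ i, ∑ j, c * ρ (y i) (y j) ≤
      (n:ℝ)^2/2 * (c * ρ s t) + n * ∑ i, (c * ρ s (y i) + c * ρ (y i) t - c * ρ s t)
    rw [h1, h2]
    linarith
  · intro n s t r z y
    have := mul_le_mul_of_nonneg_left (h.tri n s t r z y) hc
    have h1 : ∑ i, ∑ j, c * ρ (z i) (z j) = c * ∑ i, ∑ j, ρ (z i) (z j) := by
      simp only [Finset.mul_sum]
    have h2 : ∑ i, ∑ a, ∑ b, c * ρ (y i a) (y i b) = c * ∑ i, ∑ a, ∑ b, ρ (y i a) (y i b) := by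
      simp only [Finset.mul_sum]
    have h3 : ∑ i, ∑ a, ((c * ρ r (y i a) + c * ρ (y i a) t) +
        (c * ρ (z i) (y i a) + c * ρ (y i a) t) + (3/2) * (c * ρ s r + c * ρ r (y i a) -
          c * ρ s t)) = c * ∑ i, ∑ a, ((ρ r (y i a) + ρ (y i a) t) +
        (ρ (z i) (y i a) + ρ (y i a) t) + (3/2) * (ρ s r + ρ r (y i a) - ρ s t)) := by
      simp only [Finset.mul_sum]
      exact Finset.sum_congr rfl fun i _ => Finset.sum_congr rfl fun a _ => by ring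
    have h4 : ∑ i, ∑ a, exd (fun x y => c * ρ x y) s t r (z i) (y i a) =
        c * ∑ i, ∑ a, exd ρ s t r (z i) (y i a) := by
      simp only [Finset.mul_sum]
      exact Finset.sum_congr rfl fun i _ => Finset.sum_congr rfl fun a _ => by
        simp only [exd]; ring
    show n * (∑ i, ∑ j, c * ρ (z i) (z j)) + (9/4) * ∑ i, ∑ a, ∑ b, c * ρ (y i a) (y i b) ≤
      (n:ℝ)^3 / 8 * (c * ρ s t) + n * ∑ i, ∑ a, ((c * ρ r (y i a) + c * ρ (y i a) t) +
        (c * ρ (z i) (y i a) + c * ρ (y i a) t) + (3/2) * (c * ρ s r + c * ρ r (y i a) -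
          c * ρ s t)) + 8 * (n:ℝ)^3 * ∑ i, ∑ a, exd (fun x y => c * ρ x y) s t r (z i) (y i a)
    rw [h1, h2, h3, h4]
    linarith

end Vale.Agent.P235
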