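import Vale.Agent.P235.GlueOk

/-! The induction. -/

namespace Vale.Agent.P235

theorem Fail.mono {K : WG} {η η' : ℝ} (h : Fail K η') (hl : ∀ e, 0 < K.len e) (hη : η ≤ η') :
    Fail K η := fun ρ h1 h2 => h ρ h1 fun e => (h2 e).trans
      (mul_le_mul_of_nonneg_right hη (hl e).le)

theorem glue_ok {H K : WG} {w wK : ℕ} {A : ℝ} (hH : Ok H w) (hK : Ok K wK) (hw : wK + 2 ≤ w)
    (h3 : 3 ≤ w) (hA : 0 < A) (hlA : ∀ e, K.len e ≤ A)
    (hgA : ∀ i, ∃ g : K.V → ℝ, (∀ e, |g (K.src e) - g (K.tgt e)| ≤ K.len e) ∧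
      K.D i ≤ g (K.p i) - g (K.q i) ∧ ∀ v, 2 * |g v| ≤ A) : Ok (glue H K A) w := by
  have := hH.finV
  have := hK.finV
  have := hH.finE
  have := hK.finE
  have := hH.finP
  have := hK.finP
  refine ⟨?_, ?_, ?_, ?_, ?_, glue_wit hA hH.pos hK.pos hlA hH.wit hgA, ?_,
    glue_conn A hK.neE hH.conn⟩
  · show Finite (H.V ⊕ (H.E × (K.V ⊕ (K.E × Bool))))
    infer_instance
  · show Finite (H.E × (K.V ⊕ ((K.E × Bool × Bool) ⊕ (K.E × Bool))))
    infer_instance
  · show Finite (H.P ⊕ (H.E × (K.P ⊕ K.E)))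
    infer_instance
  · obtain ⟨h⟩ := hH.neE
    obtain ⟨e⟩ := hK.neE
    exact ⟨(h, .inr (.inr (e, false)))⟩
  · have hm1 : ∀ e, 0 < K.len e / (4 * A) := fun e => div_pos (hK.pos e) (by linarith)
    have hm2 : ∀ e, K.len e / (4 * A) ≤ 1 / 4 := fun e => by
      rw [div_le_iff₀ (by linarith)]; have := hlA e; linarith
    rintro ⟨h, v | ⟨e, i, _ | _⟩ | ⟨e, i⟩⟩
    · have := hH.pos h; simp only [glue]; linarith
    · exact mul_pos (hH.pos h) (hm1 e)
    · exact mul_pos (hH.pos h) (hm1 e)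
    · exact mul_pos (hH.pos h) (by linarith [hm2 e])
  · obtain ⟨RH, rH, r, hH'⟩ := hH.elim
    obtain ⟨RK, rK, r', hK'⟩ := hK.elim
    obtain ⟨M, hM⟩ := (Set.finite_range rH).bddAbove
    obtain ⟨N, hN⟩ := (Set.finite_range rK).bddAbove
    exact ⟨_, _, _, glue_el A hH' hK' (M := M + 1) (N := N + 1)
      (fun a => Nat.lt_succ_of_le (hM ⟨a, rfl⟩)) (fun a => Nat.lt_succ_of_le (hN ⟨a, rfl⟩))
      hH.finV hK.finV le_rfl hw h3⟩

/-- the choice of the scaling constant -/
theorem exists_A {K : WG} {w : ℕ} (hK : Ok K w) : ∃ A : ℝ, 0 < A ∧ (∀ e, K.len e ≤ A) ∧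
    ∀ i, ∃ g : K.V → ℝ, (∀ e, |g (K.src e) - g (K.tgt e)| ≤ K.len e) ∧
      K.D i ≤ g (K.p i) - g (K.q i) ∧ ∀ v, 2 * |g v| ≤ A := by
  have := hK.finV
  have := hK.finE
  have := hK.finP
  choose g hg1 hg2 using hK.wit
  obtain ⟨A1, h1⟩ := (Set.finite_range K.len).bddAbove
  obtain ⟨A2, h2⟩ := (Set.finite_range (fun x : K.P × K.V => 2 * |g x.1 x.2|)).bddAbove
  refine ⟨max (max A1 A2) 1, lt_of_lt_of_le one_pos (le_max_right _ _), ?_, ?_⟩
  · intro e
    exact (h1 ⟨e, rfl⟩).trans ((le_max_left _ _).trans (le_max_left _ _))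
  · intro i
    refine ⟨g i, hg1 i, hg2 i, fun v => ?_⟩
    exact (h2 ⟨(i, v), rfl⟩).trans ((le_max_right _ _).trans (le_max_left _ _))

theorem step1 {H K : WG} {A τ τ' κ : ℝ} (hA : 0 < A) (hlH : ∀ e, 0 < H.len e)
    (hF : Fail K κ) (hκ : ∀ e, (τ - 1) * K.len e + 4 * A * (τ - τ') ≤ κ * K.len e)
    {ρ : (glue H K A).V → (glue H K A).V → ℝ} (hρ : SP ρ)
    (he : ∀ e, ρ ((glue H K A).src e) ((glue H K A).tgt e) ≤ τ * (glue H K A).len e)
    (hw : ∀ i, (glue H K A).D i ≤ ρ ((glue H K A).p i) ((glue H K A).q i)) (h : H.E) :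
    ρ (Sum.inl (H.src h)) (Sum.inl (H.tgt h)) ≤ τ' * H.len h := by
  by_contra hc
  push Not at hc
  have hl := hlH h
  set l := H.len h with hldef
  obtain ⟨i, hi⟩ := hF (fun x y => (2 * A / l) * ρ (Sum.inr (h, Sum.inl x)) (Sum.inr (h, Sum.inl y)))
    ((hρ.comap (fun x => (Sum.inr (h, Sum.inl x)))).smul (div_nonneg (by linarith) hl.le)) (by
      intro e
      have h0 := hρ.six (Sum.inl (H.src h)) (Sum.inl (H.tgt h)) (Sum.inr (h, Sum.inl (K.src e)))
        (Sum.inr (h, Sum.inl (K.tgt e))) (Sum.inr (h, Sum.inr (e, false)))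
        (Sum.inr (h, Sum.inr (e, true)))
      have h1 : ρ (Sum.inl (H.src h)) (Sum.inr (h, Sum.inl (K.src e))) ≤ τ * (l / 2) :=
        he (h, .inl (K.src e))
      have h2 : ρ (Sum.inl (H.src h)) (Sum.inr (h, Sum.inl (K.tgt e))) ≤ τ * (l / 2) :=
        he (h, .inl (K.tgt e))
      have h3 : ρ (Sum.inr (h, Sum.inl (K.src e))) (Sum.inr (h, Sum.inr (e, false))) ≤
          τ * (l * (K.len e / (4 * A))) := he (h, .inr (.inl (e, false, false)))
      have h4 : ρ (Sum.inr (h, Sum.inl (K.src e))) (Sum.inr (h, Sum.inr (e, true))) ≤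
          τ * (l * (K.len e / (4 * A))) := he (h, .inr (.inl (e, true, false)))
      have h5 : ρ (Sum.inr (h, Sum.inl (K.tgt e))) (Sum.inr (h, Sum.inr (e, false))) ≤
          τ * (l * (K.len e / (4 * A))) := he (h, .inr (.inl (e, false, true)))
      have h6 : ρ (Sum.inr (h, Sum.inl (K.tgt e))) (Sum.inr (h, Sum.inr (e, true))) ≤
          τ * (l * (K.len e / (4 * A))) := he (h, .inr (.inl (e, true, true)))
      have h7 : ρ (Sum.inr (h, Sum.inr (e, false))) (Sum.inl (H.tgt h)) ≤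
          τ * (l * (1 / 2 - K.len e / (4 * A))) := he (h, .inr (.inr (e, false)))
      have h8 : ρ (Sum.inr (h, Sum.inr (e, true))) (Sum.inl (H.tgt h)) ≤
          τ * (l * (1 / 2 - K.len e / (4 * A))) := he (h, .inr (.inr (e, true)))
      have h9 : l * (2 * (K.len e / (4 * A))) ≤
          ρ (Sum.inr (h, Sum.inr (e, false))) (Sum.inr (h, Sum.inr (e, true))) :=
        hw (.inr (h, .inr e))
      have h10 : ρ (Sum.inr (h, Sum.inl (K.src e))) (Sum.inr (h, Sum.inl (K.tgt e))) ≤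
          l / (2 * A) * ((τ - 1) * K.len e + 4 * A * (τ - τ')) := by
        have h11 : l / (2 * A) * ((τ - 1) * K.len e + 4 * A * (τ - τ')) =
            2 * (τ - 1) * (l * (K.len e / (4 * A))) + 2 * (τ - τ') * l := by
          field_simp; ring
        rw [h11]
        linarith
      calc 2 * A / l * ρ (Sum.inr (h, Sum.inl (K.src e))) (Sum.inr (h, Sum.inl (K.tgt e)))
          ≤ 2 * A / l * (l / (2 * A) * ((τ - 1) * K.len e + 4 * A * (τ - τ'))) :=
            mul_le_mul_of_nonneg_left h10 (div_nonneg (by linarith) hl.le)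
        _ = (τ - 1) * K.len e + 4 * A * (τ - τ') := by field_simp
        _ ≤ κ * K.len e := hκ e)
  have h1 : l * (K.D i / (2 * A)) ≤
      ρ (Sum.inr (h, Sum.inl (K.p i))) (Sum.inr (h, Sum.inl (K.q i))) := hw (.inr (h, .inl i))
  have h2 := mul_le_mul_of_nonneg_left h1 (div_nonneg (by linarith : (0:ℝ) ≤ 2 * A) hl.le)
  have h3 : 2 * A / l * (l * (K.D i / (2 * A))) = K.D i := by field_simp
  rw [h3] at h2
  exact absurd hi (not_lt.mpr h2)

/-- a single edge -/
noncomputable def base : WG where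
  V := Bool
  E := Unit
  P := Unit
  src _ := false
  tgt _ := true
  len _ := 1
  p _ := false
  q _ := true
  D _ := 1

theorem base_fail {η : ℝ} (h : η < 1) : Fail base η := by
  intro ρ _ h2
  refine ⟨(), ?_⟩
  have := h2 ()
  simp only [base] at this ⊢
  linarith

theorem base_ok {w : ℕ} (hw : 1 ≤ w) : Ok base w := by
  refine ⟨inferInstanceAs (Finite Bool), inferInstanceAs (Finite Unit), inferInstanceAs (Finite Unit),
    inferInstanceAs (Nonempty Unit), fun _ => one_pos, ?_, ?_, ?_⟩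
  · intro i
    refine ⟨fun b => match b with
      | false => 1
      | true => 0, ?_, ?_⟩
    · intro e; simp [base]
    · simp [base]
  · refine ⟨fun a b : Bool => a ≠ b, fun a : Bool => if a then 1 else 0, false, ?_, ?_, ?_, ?_, ?_, ?_⟩
    · intro u v h; exact h.symm
    · rintro (_ | _) (_ | _) h <;> simp_all
    · intro e; simp [base]
    · rintro (_ | _) (_ | _) (_ | _) <;> simp <;> rfl
    · intro v
      refine (Set.ncard_le_ncard (t := {false}) ?_ (Set.finite_singleton _)).trans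
        (by rw [Set.ncard_singleton]; exact hw)
      rintro (_ | _) ⟨_, h⟩
      · rfl
      · exfalso
        revert h
        cases v <;> simp
    · rintro (_ | _) h
      · exact (h rfl).elim
      · exact ⟨false, by simp, by simp⟩
  · rintro (_ | _) (_ | _)
    · exact .refl _
    · exact .rel _ _ ⟨(), rfl, rfl⟩
    · exact .symm _ _ (.rel _ _ ⟨(), rfl, rfl⟩)
    · exact .refl _

/-- the iterated glueing -/
noncomputable def tower (K : WG) (A : ℝ) : ℕ → WG
  | 0 => base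
  | n + 1 => glue (tower K A n) K A

theorem tower_fail {K : WG} {A η ε θ : ℝ} {w : ℕ} (hK : Ok K w) (hA : 0 < A) (hθ : 0 < θ)
    (hθ1 : θ < 1) (hF : Fail K (η - 1 + ε)) (hm : ∀ e, 4 * A * (η * (1 - θ)) ≤ ε * K.len e)
    (hpos : ∀ n e, 0 < (tower K A n).len e) :
    ∀ n, ∀ τ, 0 ≤ τ → τ ≤ η → τ * θ ^ n < 1 → Fail (tower K A n) τ := by
  intro n
  induction n with
  | zero => intro τ _ _ h; exact base_fail (by simpa using h)
  | succ n ih =>
    intro τ h0 h1 h2 ρ hρ he
    by_contra hc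
    push Not at hc
    have h3 := step1 (H := tower K A n) (τ' := θ * τ) hA (hpos n) hF (by
      intro e
      have h4 := hm e
      have h5 := (hK.pos e)
      have h6 : 4 * A * (τ - θ * τ) ≤ 4 * A * (η * (1 - θ)) := by
        refine mul_le_mul_of_nonneg_left ?_ (by linarith)
        nlinarith
      have h7 : (τ - 1) * K.len e ≤ (η - 1) * K.len e :=
        mul_le_mul_of_nonneg_right (by linarith) h5.le
      linarith) hρ he hc
    obtain ⟨i, hi⟩ := ih (θ * τ) (mul_nonneg hθ.le h0) (by nlinarith) (by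
      rw [pow_succ] at h2; linarith) (fun x y => ρ (Sum.inl x) (Sum.inl y))
      (hρ.comap Sum.inl) h3
    exact absurd hi (not_lt.mpr (hc (.inl i)))

theorem main_step {w : ℕ} {c : ℝ} (hc : 0 ≤ c) (hw : 1 ≤ w)
    (ih : ∀ η, η < c → ∃ K : WG, Ok K w ∧ Fail K η) :
    ∀ η, η < c + 1 → ∃ K : WG, Ok K (w + 2) ∧ Fail K η := by
  intro η₀ hη₀
  rcases hc.eq_or_lt with rfl | hc0
  · exact ⟨base, base_ok (by omega), base_fail (by simpa using hη₀)⟩
  · obtain ⟨η, hη1, hη2, hη3⟩ : ∃ η : ℝ, 1 ≤ η ∧ η₀ ≤ η ∧ η < c + 1 :=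
      ⟨max η₀ 1, le_max_right _ _, le_max_left _ _, max_lt hη₀ (by linarith)⟩
    obtain ⟨ε, hε, hε2⟩ : ∃ ε : ℝ, 0 < ε ∧ η - 1 + ε < c :=
      ⟨(c + 1 - η) / 2, by linarith, by linarith⟩
    obtain ⟨K, hK, hF⟩ := ih _ hε2
    obtain ⟨A, hA, hlA, hgA⟩ := exists_A hK
    have := hK.finE
    have := hK.neE
    obtain ⟨e0, he0⟩ := Finite.exists_min K.len
    have hl0 := hK.pos e0
    have hη0 : 0 < η := by linarith
    have hS : 0 < 4 * A * η + ε * K.len e0 := by positivity
    have hT : ∀ n, Ok (tower K A n) (w + 2) := by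
      intro n
      induction n with
      | zero => exact base_ok (by omega)
      | succ n ihn => exact glue_ok ihn hK (by omega) (by omega) hA hlA hgA
    have hθ1 : 4 * A * η / (4 * A * η + ε * K.len e0) < 1 := by
      rw [div_lt_one hS]
      have : 0 < ε * K.len e0 := by positivity
      linarith
    have hθ0 : 0 < 4 * A * η / (4 * A * η + ε * K.len e0) := by positivity
    obtain ⟨N, hN⟩ := exists_pow_lt_of_lt_one (one_div_pos.mpr hη0) hθ1
    refine ⟨tower K A N, hT N, ?_⟩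
    refine Fail.mono ?_ (hT N).pos hη2
    refine tower_fail hK hA hθ0 hθ1 hF ?_ (fun n => (hT n).pos) N η hη0.le le_rfl ?_
    · intro e
      have h1 : 4 * A * (η * (1 - 4 * A * η / (4 * A * η + ε * K.len e0))) =
          (ε * K.len e0) * (4 * A * η / (4 * A * η + ε * K.len e0)) := by
        field_simp; ring
      rw [h1]
      have h2 : 0 < ε * K.len e0 := by positivity
      have h3 : ε * K.len e0 ≤ ε * K.len e := mul_le_mul_of_nonneg_left (he0 e) hε.le
      nlinarith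
    · rw [lt_div_iff₀ hη0] at hN
      linarith

theorem main : ∀ (k : ℕ) (η : ℝ), η < k + 1 → ∃ K : WG, Ok K (2 * k + 1) ∧ Fail K η := by
  intro k
  induction k with
  | zero =>
    intro η h
    exact ⟨base, base_ok (by omega), base_fail (by simpa using h)⟩
  | succ k ih =>
    intro η h
    push_cast at h
    exact main_step (c := k + 1) (by positivity) (by omega) ih η h

end Vale.Agent.P235
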