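import Vale.Agent.P235.Mid

/-! The inequality for the treewidth three gadget. -/

namespace Vale.Agent.P235

open MeasureTheory

namespace Tri

theorem quad (n : ℕ) (x : Fin n → ℝ) {A : ℝ} (hx : ∀ i, 0 ≤ x i ∧ x i ≤ A) :
    A * ∑ i, ∑ j, |x i - x j| ≤ 2 * ((∑ i, x i) * (n * A - ∑ i, x i)) := by
  have h1 : ∀ i j, A * |x i - x j| ≤ x i * (A - x j) + x j * (A - x i) := by
    intro i j
    have := hx i
    have := hx j
    rcases abs_cases (x i - x j) with ⟨e, _⟩ | ⟨e, _⟩ <;> rw [e] <;> nlinarith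
  have h2 : A * ∑ i, ∑ j, |x i - x j| ≤ ∑ i, ∑ j, (x i * (A - x j) + x j * (A - x i)) := by
    rw [Finset.mul_sum]
    refine Finset.sum_le_sum fun i _ => ?_
    rw [Finset.mul_sum]
    exact Finset.sum_le_sum fun j _ => h1 i j
  have h3 : ∑ i, ∑ j, (x i * (A - x j) + x j * (A - x i)) =
      2 * ((∑ i, x i) * ∑ j, (A - x j)) := by
    simp only [Finset.sum_add_distrib]
    rw [Finset.sum_comm (f := fun i j => x j * (A - x i)), two_mul, Finset.sum_mul_sum]
  have h4 : ∑ j, (A - x j) = n * A - ∑ i, x i := by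
    rw [Finset.sum_sub_distrib]; simp
  rw [h3, h4] at h2
  exact h2

theorem quad_zero (n : ℕ) (x : Fin n → ℝ) (hx : ∀ i, x i = 0) :
    ∑ i, ∑ j, |x i - x j| = 0 ∧ ∑ i, x i = 0 := by
  constructor
  · exact Finset.sum_eq_zero fun i _ => Finset.sum_eq_zero fun j _ => by rw [hx i, hx j]; simp
  · exact Finset.sum_eq_zero fun i _ => hx i

theorem quad' (n : ℕ) (x : Fin n → ℝ) {A : ℝ} (hx : ∀ i, 0 ≤ x i ∧ x i ≤ A) (hA : 0 ≤ A)
    {c u v : ℝ} (hc : 0 ≤ c) (h : ∀ S : ℝ, c * (2 * (S * (n * A - S))) ≤ A * (u * A + v * S)) :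
    c * ∑ i, ∑ j, |x i - x j| ≤ u * A + v * ∑ i, x i := by
  rcases hA.eq_or_lt with hA0 | hA0
  · have h0 : ∀ i, x i = 0 := fun i => le_antisymm (by have := (hx i).2; linarith) (hx i).1
    rw [(quad_zero n x h0).1, (quad_zero n x h0).2, ← hA0]
    simp
  · have h1 := mul_le_mul_of_nonneg_left (quad n x hx) hc
    have h2 := h1.trans (h (∑ i, x i))
    have h3 : A * (c * ∑ i, ∑ j, |x i - x j|) ≤ A * (u * A + v * ∑ i, x i) := by linarith
    exact le_of_mul_le_mul_left h3 hA0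

theorem quad2 (n : ℕ) (x : Fin n → ℝ) {A : ℝ} (hx : ∀ i, 0 ≤ x i ∧ x i ≤ A) (hA : 0 ≤ A) :
    ∑ i, ∑ j, |x i - x j| ≤ (n:ℝ)^2 * (9/8) * A + (-n) * ∑ i, x i := by
  have := quad' n x hx hA (c := 1) (u := (n:ℝ)^2 * (9/8)) (v := -n) zero_le_one (by
    intro S; nlinarith [sq_nonneg (S - 3/4 * (n * A))])
  linarith

theorem quad3 (n : ℕ) (x : Fin n → ℝ) {A : ℝ} (hx : ∀ i, 0 ≤ x i ∧ x i ≤ A) (hA : 0 ≤ A) :
    ∑ i, ∑ j, |x i - x j| ≤ (n:ℝ)^2 * (1/8) * A + n * ∑ i, x i := by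
  have := quad' n x hx hA (c := 1) (u := (n:ℝ)^2 * (1/8)) (v := n) zero_le_one (by
    intro S; nlinarith [sq_nonneg (S - 1/4 * (n * A))])
  linarith

theorem quad4 (n : ℕ) (x : Fin n → ℝ) {A : ℝ} (hx : ∀ i, 0 ≤ x i ∧ x i ≤ A) (hA : 0 ≤ A) :
    (9/4) * ∑ i, ∑ j, |x i - x j| ≤ (n:ℝ)^2 * 2 * A + (-(3/2) * n) * ∑ i, x i := by
  exact quad' n x hx hA (c := 9/4) (u := (n:ℝ)^2 * 2) (v := -(3/2) * n) (by norm_num) (by
    intro S; nlinarith [sq_nonneg (3 * S - 2 * (n * A))])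

/-- the monotone case -/
theorem mono (n : ℕ) {L R : ℝ} (hR : 0 ≤ R) (hRL : R ≤ L) (Z : Fin n → ℝ)
    (hZ : ∀ i, 0 ≤ Z i ∧ Z i ≤ L) (Y : Fin n → Fin n → ℝ) (hY : ∀ i a, 0 ≤ Y i a ∧ Y i a ≤ R ∧
      Y i a ≤ Z i) :
    n * (∑ i, ∑ j, |Z i - Z j|) + (9/4) * ∑ i, ∑ a, ∑ b, |Y i a - Y i b| ≤
      (n:ℝ)^3 * (L / 8 + R) + (n:ℝ)^2 * (∑ i, Z i) - (3/2) * (n * ∑ i, ∑ a, Y i a) := by
  set A : Fin n → ℝ := fun i => min (Z i) R with hA
  set B : Fin n → ℝ := fun i => Z i - A i with hB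
  have hA0 : ∀ i, 0 ≤ A i ∧ A i ≤ R := fun i => ⟨le_min (hZ i).1 hR, min_le_right _ _⟩
  have hB0 : ∀ i, 0 ≤ B i ∧ B i ≤ L - R := by
    intro i
    refine ⟨sub_nonneg.mpr (min_le_left _ _), ?_⟩
    simp only [hB, hA]
    rcases le_total (Z i) R with h | h
    · rw [min_eq_left h]; linarith
    · rw [min_eq_right h]; have := (hZ i).2; linarith
  have h1 := quad2 n A hA0 hR
  have h2 := quad3 n B hB0 (by linarith)
  have h3 : ∀ i, (9/4) * ∑ a, ∑ b, |Y i a - Y i b| ≤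
      (n:ℝ)^2 * 2 * A i + (-(3/2) * n) * ∑ a, Y i a := fun i =>
    quad4 n (Y i) (fun a => ⟨(hY i a).1, le_min (hY i a).2.2 (hY i a).2.1⟩) (hA0 i).1
  have h4 : ∑ i, ∑ j, |Z i - Z j| ≤ ∑ i, ∑ j, |A i - A j| + ∑ i, ∑ j, |B i - B j| := by
    rw [← Finset.sum_add_distrib]
    refine Finset.sum_le_sum fun i _ => ?_
    rw [← Finset.sum_add_distrib]
    refine Finset.sum_le_sum fun j _ => ?_
    have : Z i - Z j = (A i - A j) + (B i - B j) := by simp only [hB]; ring
    rw [this]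
    exact abs_add_le _ _
  have h5 : ∑ i, B i = ∑ i, Z i - ∑ i, A i := by
    simp only [hB]; rw [Finset.sum_sub_distrib]
  have h6 : (9/4) * ∑ i, ∑ a, ∑ b, |Y i a - Y i b| ≤
      (n:ℝ)^2 * 2 * (∑ i, A i) + (-(3/2) * n) * ∑ i, ∑ a, Y i a := by
    rw [Finset.mul_sum, Finset.mul_sum, Finset.mul_sum, ← Finset.sum_add_distrib]
    exact Finset.sum_le_sum fun i _ => h3 i
  have hn : (0:ℝ) ≤ n := Nat.cast_nonneg n
  have h7 : ∑ i, ∑ j, |Z i - Z j| ≤ (n:ℝ)^2 * (9/8) * R + (-n) * (∑ i, A i) +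
      ((n:ℝ)^2 * (1/8) * (L - R) + n * (∑ i, Z i - ∑ i, A i)) := by
    rw [h5] at h2
    linarith
  have h8 := mul_le_mul_of_nonneg_left h7 hn
  have h9 : (n:ℝ) * ((n:ℝ)^2 * (9/8) * R + (-n) * (∑ i, A i) +
      ((n:ℝ)^2 * (1/8) * (L - R) + n * (∑ i, Z i - ∑ i, A i))) + ((n:ℝ)^2 * 2 * (∑ i, A i) +
      (-(3/2) * n) * ∑ i, ∑ a, Y i a) = (n:ℝ)^3 * (L / 8 + R) + (n:ℝ)^2 * (∑ i, Z i)
        - (3/2) * (n * ∑ i, ∑ a, Y i a) := by ring
  linarith

/-- the excess of the two paths `s r y t` and `s z y t` -/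
def ex (s t r z y : ℝ) : ℝ :=
  |s - r| + |r - y| + |s - z| + |z - y| + 2 * |y - t| - 2 * |s - t|

theorem err {s t x y : ℝ} (hst : s ≤ t) :
    2 * (x - t) ≤ |s - x| + |x - y| + |y - t| - |s - t| ∧
    2 * (s - x) ≤ |s - x| + |x - y| + |y - t| - |s - t| ∧
    2 * (y - t) ≤ |s - x| + |x - y| + |y - t| - |s - t| ∧
    2 * (s - y) ≤ |s - x| + |x - y| + |y - t| - |s - t| ∧
    2 * (x - y) ≤ |s - x| + |x - y| + |y - t| - |s - t| ∧
    0 ≤ |s - x| + |x - y| + |y - t| - |s - t| := by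
  rw [abs_of_nonpos (by linarith : s - t ≤ 0)]
  have a1 := le_abs_self (s - x)
  have a2 := neg_le_abs (s - x)
  have b1 := le_abs_self (x - y)
  have b2 := neg_le_abs (x - y)
  have c1 := le_abs_self (y - t)
  have c2 := neg_le_abs (y - t)
  refine ⟨?_, ?_, ?_, ?_, ?_, ?_⟩ <;> linarith

theorem real_le (n : ℕ) {s t : ℝ} (hst : s ≤ t) (r : ℝ) (z : Fin n → ℝ)
    (y : Fin n → Fin n → ℝ) :
    n * (∑ i, ∑ j, |z i - z j|) + (9/4) * ∑ i, ∑ a, ∑ b, |y i a - y i b| ≤
      (n:ℝ)^3 / 8 * |s - t| + n * ∑ i, ∑ a, ((|r - y i a| + |y i a - t|) +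
        (|z i - y i a| + |y i a - t|) + (3/2) * (|s - r| + |r - y i a| - |s - t|)) +
        8 * (n:ℝ)^3 * ∑ i, ∑ a, ex s t r (z i) (y i a) := by
  rcases Nat.eq_zero_or_pos n with rfl | hn
  · simp
  have hn0 : (0:ℝ) < n := by exact_mod_cast hn
  set F : ℝ := ∑ i, ∑ a, ex s t r (z i) (y i a) with hF
  have hex : ∀ i a, ex s t r (z i) (y i a) =
      (|s - r| + |r - y i a| + |y i a - t| - |s - t|) +
      (|s - z i| + |z i - y i a| + |y i a - t| - |s - t|) := fun i a => by unfold ex; ring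
  have hex0 : ∀ i a, 0 ≤ ex s t r (z i) (y i a) := fun i a => by
    rw [hex]
    have := (err (x := r) (y := y i a) hst).2.2.2.2.2
    have := (err (x := z i) (y := y i a) hst).2.2.2.2.2
    linarith
  have hexF : ∀ i a, ex s t r (z i) (y i a) ≤ F := fun i a => by
    refine (Finset.single_le_sum (f := fun a => ex s t r (z i) (y i a))
      (fun a _ => hex0 i a) (Finset.mem_univ a)).trans ?_
    exact Finset.single_le_sum (f := fun i => ∑ a, ex s t r (z i) (y i a))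
      (fun i _ => Finset.sum_nonneg fun a _ => hex0 i a) (Finset.mem_univ i)
  have hr1 : ∀ i a, 2 * (r - t) ≤ F ∧ 2 * (s - r) ≤ F ∧ 2 * (z i - t) ≤ F ∧ 2 * (s - z i) ≤ F ∧
      2 * (y i a - t) ≤ F ∧ 2 * (s - y i a) ≤ F ∧ 2 * (r - y i a) ≤ F ∧ 2 * (z i - y i a) ≤ F := by
    intro i a
    have h1 := err (x := r) (y := y i a) hst
    have h2 := err (x := z i) (y := y i a) hst
    have h3 := hexF i a
    rw [hex] at h3
    obtain ⟨p1, p2, p3, p4, p5, p6⟩ := h1
    obtain ⟨q1, q2, q3, q4, q5, q6⟩ := h2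
    refine ⟨?_, ?_, ?_, ?_, ?_, ?_, ?_, ?_⟩ <;> linarith
  have i0 : Fin n := ⟨0, hn⟩
  have hF0 : 0 ≤ F := (hex0 i0 i0).trans (hexF i0 i0)
  set r' : ℝ := max s (min r t) with hr'
  set z' : Fin n → ℝ := fun i => max s (min (z i) t) with hz'
  set y' : Fin n → Fin n → ℝ := fun i a => max (max s (min (y i a) t)) (max r' (z' i)) with hy'
  have r1 : s ≤ r' ∧ r' ≤ t := ⟨le_max_left _ _, max_le hst (min_le_right _ _)⟩
  have z1 : ∀ i, s ≤ z' i ∧ z' i ≤ t := fun i => ⟨le_max_left _ _, max_le hst (min_le_right _ _)⟩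
  have y1 : ∀ i a, r' ≤ y' i a ∧ z' i ≤ y' i a ∧ y' i a ≤ t := fun i a =>
    ⟨(le_max_left _ _).trans (le_max_right _ _), (le_max_right _ _).trans (le_max_right _ _),
      max_le (max_le hst (min_le_right _ _)) (max_le r1.2 (z1 i).2)⟩
  have er : t - r' ≤ |r - t| := by
    have h1 : min r t ≤ r' := le_max_right _ _
    rcases le_total r t with h | h
    · rw [min_eq_left h] at h1
      rw [abs_of_nonpos (by linarith : r - t ≤ 0)]; linarith
    · rw [min_eq_right h] at h1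
      have := abs_nonneg (r - t); linarith
  have ez : ∀ i, t - z' i ≤ |z i - t| := fun i => by
    have h1 : min (z i) t ≤ z' i := le_max_right _ _
    rcases le_total (z i) t with h | h
    · rw [min_eq_left h] at h1
      rw [abs_of_nonpos (by linarith : z i - t ≤ 0)]; linarith
    · rw [min_eq_right h] at h1
      have := abs_nonneg (z i - t); linarith
  have ez' : ∀ i, |z i - z' i| ≤ F := fun i => by
    obtain ⟨-, -, q1, q2, -⟩ := hr1 i i0
    simp only [hz']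
    rcases le_total (z i) t with h | h
    · rw [min_eq_left h]
      rcases le_total s (z i) with h' | h'
      · rw [max_eq_right h', sub_self, abs_zero]; exact hF0
      · rw [max_eq_left h', abs_of_nonpos (by linarith : z i - s ≤ 0)]; linarith
    · rw [min_eq_right h, max_eq_right hst, abs_of_nonneg (by linarith : 0 ≤ z i - t)]; linarith
  have ey' : ∀ i a, |y i a - y' i a| ≤ F := fun i a => by
    obtain ⟨p1, p2, q1, q2, q3, q4, q5, q6⟩ := hr1 i a
    rw [abs_le]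
    constructor
    · have h1 : y' i a ≤ y i a + F := by
        refine max_le (max_le (by linarith) ((min_le_left _ _).trans (by linarith)))
          (max_le (max_le (by linarith) ((min_le_left _ _).trans (by linarith)))
            (max_le (by linarith) ((min_le_left _ _).trans (by linarith))))
      linarith
    · have h1 : min (y i a) t ≤ y' i a := (le_max_right _ _).trans (le_max_left _ _)
      rcases le_total (y i a) t with h | h
      · rw [min_eq_left h] at h1; linarith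
      · rw [min_eq_right h] at h1; linarith
  have main := mono n (L := t - s) (R := t - r') (by linarith [r1.2]) (by linarith [r1.1])
    (fun i => t - z' i) (fun i => ⟨by linarith [(z1 i).2], by linarith [(z1 i).1]⟩)
    (fun i a => t - y' i a) (fun i a => ⟨by linarith [(y1 i a).2.2], by linarith [(y1 i a).1],
      by linarith [(y1 i a).2.1]⟩)
  have k1 : ∑ i, ∑ j, |z i - z j| ≤ ∑ i, ∑ j, |(t - z' i) - (t - z' j)| + (n:ℝ)^2 * (2 * F) := by
    have : ∑ i : Fin n, ∑ j : Fin n, |(t - z' i) - (t - z' j)| + (n:ℝ)^2 * (2 * F) =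
        ∑ i : Fin n, ∑ j : Fin n, (|(t - z' i) - (t - z' j)| + 2 * F) := by
      simp only [Finset.sum_add_distrib, Finset.sum_const, Finset.card_univ, Fintype.card_fin,
        nsmul_eq_mul]
      ring
    rw [this]
    refine Finset.sum_le_sum fun i _ => Finset.sum_le_sum fun j _ => ?_
    have h1 : z i - z j = -((t - z' i) - (t - z' j)) + ((z i - z' i) - (z j - z' j)) := by ring
    rw [h1]
    refine (abs_add_le _ _).trans ?_
    rw [abs_neg]
    have := abs_sub (z i - z' i) (z j - z' j)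
    linarith [ez' i, ez' j]
  have k2 : ∑ i, ∑ a, ∑ b, |y i a - y i b| ≤
      ∑ i, ∑ a, ∑ b, |(t - y' i a) - (t - y' i b)| + (n:ℝ)^3 * (2 * F) := by
    have : ∑ i : Fin n, ∑ a : Fin n, ∑ b : Fin n, |(t - y' i a) - (t - y' i b)| +
        (n:ℝ)^3 * (2 * F) =
        ∑ i : Fin n, ∑ a : Fin n, ∑ b : Fin n, (|(t - y' i a) - (t - y' i b)| + 2 * F) := by
      simp only [Finset.sum_add_distrib, Finset.sum_const, Finset.card_univ, Fintype.card_fin,
        nsmul_eq_mul]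
      ring
    rw [this]
    refine Finset.sum_le_sum fun i _ => Finset.sum_le_sum fun a _ =>
      Finset.sum_le_sum fun b _ => ?_
    have h1 : y i a - y i b = -((t - y' i a) - (t - y' i b)) +
        ((y i a - y' i a) - (y i b - y' i b)) := by ring
    rw [h1]
    refine (abs_add_le _ _).trans ?_
    rw [abs_neg]
    have := abs_sub (y i a - y' i a) (y i b - y' i b)
    linarith [ey' i a, ey' i b]
  have k3 : (n:ℝ)^3 * ((t - s) / 8 + (t - r')) + (n:ℝ)^2 * (∑ i, (t - z' i)) -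
      (3/2) * (n * ∑ i, ∑ a, (t - y' i a)) =
      (n:ℝ)^3 / 8 * (t - s) + n * ∑ i : Fin n, ∑ a : Fin n, ((t - r') + (t - z' i)
        - (3/2) * (t - y' i a)) := by
    simp only [Finset.sum_add_distrib, Finset.sum_sub_distrib, Finset.sum_const, Finset.card_univ,
      Fintype.card_fin, nsmul_eq_mul, ← Finset.mul_sum]
    ring
  have k4 : ∑ i : Fin n, ∑ a : Fin n, ((t - r') + (t - z' i) - (3/2) * (t - y' i a)) ≤
      ∑ i, ∑ a, ((|r - y i a| + |y i a - t|) + (|z i - y i a| + |y i a - t|) +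
        (3/2) * (|s - r| + |r - y i a| - |s - t|)) + (n:ℝ)^2 * ((3/2) * F) := by
    have : ∑ i, ∑ a, ((|r - y i a| + |y i a - t|) + (|z i - y i a| + |y i a - t|) +
        (3/2) * (|s - r| + |r - y i a| - |s - t|)) + (n:ℝ)^2 * ((3/2) * F) =
        ∑ i : Fin n, ∑ a : Fin n, (((|r - y i a| + |y i a - t|) +
          (|z i - y i a| + |y i a - t|) +
        (3/2) * (|s - r| + |r - y i a| - |s - t|)) + (3/2) * F) := by
      simp only [Finset.sum_add_distrib, Finset.sum_const, Finset.card_univ, Fintype.card_fin,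
        nsmul_eq_mul]
      ring
    rw [this]
    refine Finset.sum_le_sum fun i _ => Finset.sum_le_sum fun a _ => ?_
    have h1 : t - r' ≤ |r - y i a| + |y i a - t| := by
      have : r - t = (r - y i a) + (y i a - t) := by ring
      rw [this] at er
      exact er.trans (abs_add_le _ _)
    have h2 : t - z' i ≤ |z i - y i a| + |y i a - t| := by
      have h := ez i
      have : z i - t = (z i - y i a) + (y i a - t) := by ring
      rw [this] at h
      exact h.trans (abs_add_le _ _)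
    have h3 : -(t - y' i a) ≤ |s - r| + |r - y i a| - |s - t| + F := by
      rw [abs_of_nonpos (by linarith : s - t ≤ 0)]
      have h4 := (abs_le.mp (ey' i a)).1
      have h5 := neg_le_abs (s - r)
      have h6 := neg_le_abs (r - y i a)
      linarith
    linarith
  have k5 : |s - t| = t - s := by rw [abs_of_nonpos (by linarith : s - t ≤ 0)]; ring
  rw [k3] at main
  have k6 := mul_le_mul_of_nonneg_left k4 hn0.le
  have k7 := mul_le_mul_of_nonneg_left k1 hn0.le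
  rw [k5] at *
  have k8 : (n:ℝ) * (n:ℝ)^2 = (n:ℝ)^3 := by ring
  nlinarith [k8]

end Tri

end Vale.Agent.P235
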